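import Mathlib
import Crest.Agent.Helper5.ShearMeasure

/-!
Helper6, row 211 (S0326, piece (a) for helper5): Riemann-type sum over grid cells versus the
integral over a compact set.
-/

set_option autoImplicit false

namespace Crest.Agent.Helper6

open Crest.Agent.Helper5 MeasureTheory

theorem cell_sum_bound {D : Set E2} (hD : IsCompact D) {ρ : ℝ} (hρ : 0 < ρ)
    (𝒬 : Finset (ℤ × ℤ)) (hcov : ∀ p ∈ D, cellKey ρ p ∈ 𝒬) (hQ : ∀ Q ∈ 𝒬, ∃ p ∈ D, p ∈ cell ρ Q)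
    (f : E2 → ℝ) (hf : ContinuousOn f D) (c : ℤ × ℤ → ℝ) (ε1 : ℝ) (hε1 : 0 ≤ ε1)
    (hc0 : ∀ Q ∈ 𝒬, 0 ≤ c Q) (hc1 : ∀ Q ∈ 𝒬, c Q ≤ 1)
    (hcf : ∀ Q ∈ 𝒬, ∀ p ∈ D, p ∈ cell ρ Q → c Q ≤ f p + ε1) :
    ∑ Q ∈ 𝒬, ρ ^ 2 * c Q ≤ (∫ p in D, f p) + ε1 * (volume D).toReal
      + ((volume (Metric.cthickening (2 * ρ) D)).toReal - (volume D).toReal) := by
  set s : ℤ × ℤ → Set E2 := fun Q => D ∩ cell ρ Q with hs
  have hsm : ∀ Q ∈ 𝒬, MeasurableSet (s Q) := fun Q _ =>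
    hD.measurableSet.inter (measurableSet_cell ρ Q)
  have hdisj : Set.Pairwise (↑𝒬) (Function.onFun Disjoint s) := by
    intro Q _ Q' _ hne
    exact (cell_disjoint ρ hρ hne).mono Set.inter_subset_right Set.inter_subset_right
  have hunion : ⋃ Q ∈ 𝒬, s Q = D := by
    ext p
    simp only [hs, Set.mem_iUnion, Set.mem_inter_iff, exists_prop]
    constructor
    · rintro ⟨Q, _, hp, _⟩
      exact hp
    · intro hp
      exact ⟨cellKey ρ p, hcov p hp, hp, mem_cell_cellKey ρ hρ p⟩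
  have hfint : IntegrableOn f D volume := hf.integrableOn_compact hD
  have hfintQ : ∀ Q ∈ 𝒬, IntegrableOn f (s Q) volume := fun Q _ =>
    hfint.mono_set Set.inter_subset_left
  have hDfin : volume D ≠ ⊤ := hD.measure_lt_top.ne
  have hsfin : ∀ Q, volume (s Q) ≠ ⊤ := fun Q =>
    ne_top_of_le_ne_top hDfin (measure_mono Set.inter_subset_left)
  have hint : ∫ p in D, f p = ∑ Q ∈ 𝒬, ∫ p in s Q, f p := by
    rw [← hunion]
    exact integral_biUnion_finset 𝒬 hsm hdisj hfintQ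
  have hvol : (volume D).toReal = ∑ Q ∈ 𝒬, (volume (s Q)).toReal := by
    rw [← hunion, measure_biUnion_finset hdisj hsm, ENNReal.toReal_sum (fun Q _ => hsfin Q)]
  have hm : ∀ Q ∈ 𝒬, (volume (s Q)).toReal ≤ ρ ^ 2 := by
    intro Q _
    have h1 : volume (s Q) ≤ ENNReal.ofReal (ρ ^ 2) := by
      rw [← volume_cell ρ hρ.le Q]
      exact measure_mono Set.inter_subset_right
    have h2 := ENNReal.toReal_mono ENNReal.ofReal_ne_top h1
    rwa [ENNReal.toReal_ofReal (sq_nonneg ρ)] at h2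
  have hper : ∀ Q ∈ 𝒬, ρ ^ 2 * c Q ≤ (∫ p in s Q, f p) + ε1 * (volume (s Q)).toReal
      + (ρ ^ 2 - (volume (s Q)).toReal) := by
    intro Q hQm
    have h1 : (c Q - ε1) * (volume (s Q)).toReal ≤ ∫ p in s Q, f p := by
      have := setIntegral_ge_of_const_le_real (μ := volume) (f := f) (c := c Q - ε1) (hsm Q hQm)
        (hsfin Q) (fun p hp => by linarith [hcf Q hQm p hp.1 hp.2]) (hfintQ Q hQm)
      exact this
    have h2 : (ρ ^ 2 - (volume (s Q)).toReal) * c Q ≤ ρ ^ 2 - (volume (s Q)).toReal := by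
      have h3 : 0 ≤ ρ ^ 2 - (volume (s Q)).toReal := by linarith [hm Q hQm]
      calc (ρ ^ 2 - (volume (s Q)).toReal) * c Q ≤ (ρ ^ 2 - (volume (s Q)).toReal) * 1 :=
            mul_le_mul_of_nonneg_left (hc1 Q hQm) h3
        _ = ρ ^ 2 - (volume (s Q)).toReal := mul_one _
    nlinarith
  have hsum := Finset.sum_le_sum hper
  have e1 : ∑ Q ∈ 𝒬, ε1 * (volume (s Q)).toReal = ε1 * (volume D).toReal := by
    rw [hvol, Finset.mul_sum]
  have e2 : ∑ Q ∈ 𝒬, (ρ ^ 2 - (volume (s Q)).toReal) = 𝒬.card * ρ ^ 2 - (volume D).toReal := by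
    rw [Finset.sum_sub_distrib, ← hvol, Finset.sum_const, nsmul_eq_mul]
  rw [Finset.sum_add_distrib, Finset.sum_add_distrib, ← hint, e1, e2] at hsum
  have hcount := cell_count_bound hD ρ hρ 𝒬 hQ
  linarith

end Crest.Agent.Helper6
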