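import Crest.Agent.Helper7.CoverDefs

/-!
# Area sum bound for the explicit cover (piece (β) of S0325)

`area_sum_bound`:
`∑_{i < NN} dd * RR i ^ 2 / √(1 + ww i) ≤ 1/2 - 13/6000 * (1/2000)^2`.

Per term: `1/√(1+w) ≤ 1 - w/2 + 3w²/8`, a polynomial bound in `τ = tau i`, and a
telescoping (midpoint rule) comparison with the primitive `Gh`.
-/

set_option autoImplicit false

namespace Crest.Agent.Helper6

open Crest.Agent.Helper7.Cover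

/-- `1/√(1+w) ≤ 1 - w/2 + 3w²/8` for `0 ≤ w ≤ 1`. -/
theorem inv_sqrt_one_add_le (w : ℝ) (h0 : 0 ≤ w) (h1 : w ≤ 1) :
    1 / Real.sqrt (1 + w) ≤ 1 - w / 2 + 3 * w ^ 2 / 8 := by
  have hP : 0 < 1 - w / 2 + 3 * w ^ 2 / 8 := by nlinarith [sq_nonneg w]
  have hpos : 0 < Real.sqrt (1 + w) := Real.sqrt_pos.mpr (by linarith)
  rw [div_le_iff₀ hpos]
  have hkey : 1 ≤ (1 - w / 2 + 3 * w ^ 2 / 8) ^ 2 * (1 + w) := by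
    have hw3 : 0 ≤ w ^ 3 := by positivity
    have hw4 : w ^ 4 ≤ w ^ 3 := by
      have : w ^ 4 = w ^ 3 * w := by ring
      rw [this]
      nlinarith
    have hw5 : 0 ≤ w ^ 5 := by positivity
    have : (1 - w / 2 + 3 * w ^ 2 / 8) ^ 2 * (1 + w)
        = 1 + 5 / 8 * w ^ 3 - 15 / 64 * w ^ 4 + 9 / 64 * w ^ 5 := by ring
    rw [this]
    linarith
  have h2 : Real.sqrt ((1 - w / 2 + 3 * w ^ 2 / 8) ^ 2 * (1 + w))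
      = (1 - w / 2 + 3 * w ^ 2 / 8) * Real.sqrt (1 + w) := by
    rw [Real.sqrt_mul (sq_nonneg _), Real.sqrt_sq hP.le]
  rw [← h2]
  calc (1 : ℝ) = Real.sqrt 1 := Real.sqrt_one.symm
    _ ≤ _ := Real.sqrt_le_sqrt hkey

/-- The polynomial per-term bound, in terms of `s = τ²`. -/
theorem term_poly (s R w A : ℝ) (hs0 : 0 ≤ s) (hs1 : s ≤ 1)
    (hR : R = 1 / 2 + (1 / 1000 : ℝ) ^ 2 * ((s + s ^ 2) / 4 + 1 / 200))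
    (hA : A = (1 + s - (1 / 2000000 : ℝ) ^ 2 / 4) / 2)
    (hw : w = (1 / 1000 : ℝ) ^ 2 * A ^ 2 + 2 * (1 / 1000 : ℝ) ^ 2 * s) :
    0 ≤ w ∧ w ≤ 1 ∧
    R ^ 2 * (1 - w / 2 + 3 * w ^ 2 / 8) ≤
      1 / 4 + (1 / 1000 : ℝ) ^ 2 * (1 / 200 - 1 / 32) + 6 / 5 * (1 / 1000 : ℝ) ^ 4
        + (1 / 1000 : ℝ) ^ 2 * (1 / 2000000 : ℝ) ^ 2 / 32
        - (1 / 1000 : ℝ) ^ 2 * s / 16 + 7 / 32 * (1 / 1000 : ℝ) ^ 2 * s ^ 2 := by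
  have hs2 : 0 ≤ s ^ 2 := sq_nonneg s
  have hs2' : s ^ 2 ≤ 1 := by nlinarith
  have hRlo : 1 / 2 ≤ R := by rw [hR]; nlinarith
  have hRhi : R ≤ 51 / 100 := by rw [hR]; nlinarith
  have hAlo : 0 ≤ A := by rw [hA]; norm_num; nlinarith
  have hAhi : A ≤ 1 := by rw [hA]; norm_num; nlinarith
  have hA2hi : A ^ 2 ≤ 1 := by nlinarith
  have hA2lo : (1 + s) ^ 2 / 4 - (1 / 2000000 : ℝ) ^ 2 / 4 ≤ A ^ 2 := by
    have : A ^ 2 = (1 + s) ^ 2 / 4 - (1 + s) * (1 / 2000000 : ℝ) ^ 2 / 8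
        + (1 / 2000000 : ℝ) ^ 4 / 64 := by rw [hA]; ring
    rw [this]
    nlinarith
  have hw0 : 0 ≤ w := by rw [hw]; nlinarith
  have hw3 : w ≤ 3 * (1 / 1000 : ℝ) ^ 2 := by rw [hw]; nlinarith
  have hwlo : (1 / 1000 : ℝ) ^ 2 * ((1 + s) ^ 2 / 4 + 2 * s - (1 / 2000000 : ℝ) ^ 2 / 4) ≤ w := by
    rw [hw]; nlinarith
  have hR2lo : 1 / 4 ≤ R ^ 2 := by nlinarith
  have hR2hi : R ^ 2 ≤ (51 / 100 : ℝ) ^ 2 := by nlinarith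
  have hw2 : w ^ 2 ≤ 9 * (1 / 1000 : ℝ) ^ 4 := by nlinarith
  have hw2' : 0 ≤ w ^ 2 := sq_nonneg w
  have hRw : w / 4 ≤ R ^ 2 * w := by nlinarith
  have hRw2 : R ^ 2 * w ^ 2 ≤ (51 / 100 : ℝ) ^ 2 * (9 * (1 / 1000 : ℝ) ^ 4) := by
    have h1 : R ^ 2 * w ^ 2 ≤ (51 / 100 : ℝ) ^ 2 * w ^ 2 :=
      mul_le_mul_of_nonneg_right hR2hi hw2'
    have h2 : (51 / 100 : ℝ) ^ 2 * w ^ 2 ≤ (51 / 100 : ℝ) ^ 2 * (9 * (1 / 1000 : ℝ) ^ 4) :=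
      mul_le_mul_of_nonneg_left hw2 (by norm_num)
    linarith
  have hq0 : 0 ≤ (s + s ^ 2) / 4 + 1 / 200 := by linarith
  have hq1 : (s + s ^ 2) / 4 + 1 / 200 ≤ 101 / 200 := by linarith
  have hq2 : ((s + s ^ 2) / 4 + 1 / 200) ^ 2 ≤ (101 / 200 : ℝ) ^ 2 := by nlinarith
  have hR2 : R ^ 2 = 1 / 4 + (1 / 1000 : ℝ) ^ 2 * ((s + s ^ 2) / 4 + 1 / 200)
      + (1 / 1000 : ℝ) ^ 4 * ((s + s ^ 2) / 4 + 1 / 200) ^ 2 := by rw [hR]; ring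
  refine ⟨hw0, by linarith [show (3 : ℝ) * (1 / 1000) ^ 2 ≤ 1 by norm_num], ?_⟩
  have hexp : R ^ 2 * (1 - w / 2 + 3 * w ^ 2 / 8)
      = R ^ 2 - (R ^ 2 * w) / 2 + 3 / 8 * (R ^ 2 * w ^ 2) := by ring
  rw [hexp]
  have hR2' : R ^ 2 ≤ 1 / 4 + (1 / 1000 : ℝ) ^ 2 * ((s + s ^ 2) / 4 + 1 / 200)
      + (1 / 1000 : ℝ) ^ 4 * (101 / 200 : ℝ) ^ 2 := by
    rw [hR2]
    have := mul_le_mul_of_nonneg_left hq2 (show (0 : ℝ) ≤ (1 / 1000 : ℝ) ^ 4 by norm_num)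
    linarith
  have hexpand : (1 / 1000 : ℝ) ^ 2 * ((1 + s) ^ 2 / 4 + 2 * s - (1 / 2000000 : ℝ) ^ 2 / 4)
      = (1 / 1000 : ℝ) ^ 2 * (1 / 4 + 5 / 2 * s + s ^ 2 / 4 - (1 / 2000000 : ℝ) ^ 2 / 4) := by ring
  rw [hexpand] at hwlo
  norm_num at hwlo hRw2 hR2' hRw ⊢
  linarith

/-- The primitive used for the telescoping comparison. -/
noncomputable def Gh (t : ℝ) : ℝ :=
  (1 / 4 + (1 / 1000 : ℝ) ^ 2 * (1 / 200 - 1 / 32) + 6 / 5 * (1 / 1000 : ℝ) ^ 4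
        + (1 / 1000 : ℝ) ^ 2 * (1 / 2000000 : ℝ) ^ 2 / 32) * t
    - (1 / 1000 : ℝ) ^ 2 * t ^ 3 / 48 + 7 / 160 * (1 / 1000 : ℝ) ^ 2 * t ^ 5

/-- Midpoint rule comparison. -/
theorem midpoint_le (τ δ : ℝ) (hδ : 0 ≤ δ) :
    δ * (1 / 4 + (1 / 1000 : ℝ) ^ 2 * (1 / 200 - 1 / 32) + 6 / 5 * (1 / 1000 : ℝ) ^ 4
        + (1 / 1000 : ℝ) ^ 2 * (1 / 2000000 : ℝ) ^ 2 / 32
        - (1 / 1000 : ℝ) ^ 2 * τ ^ 2 / 16 + 7 / 32 * (1 / 1000 : ℝ) ^ 2 * (τ ^ 2) ^ 2)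
      ≤ Gh (τ + δ / 2) - Gh (τ - δ / 2) + (1 / 1000 : ℝ) ^ 2 * δ ^ 3 / 192 := by
  have h : Gh (τ + δ / 2) - Gh (τ - δ / 2) + (1 / 1000 : ℝ) ^ 2 * δ ^ 3 / 192
      - δ * (1 / 4 + (1 / 1000 : ℝ) ^ 2 * (1 / 200 - 1 / 32) + 6 / 5 * (1 / 1000 : ℝ) ^ 4
        + (1 / 1000 : ℝ) ^ 2 * (1 / 2000000 : ℝ) ^ 2 / 32
        - (1 / 1000 : ℝ) ^ 2 * τ ^ 2 / 16 + 7 / 32 * (1 / 1000 : ℝ) ^ 2 * (τ ^ 2) ^ 2)
      = 7 / 64 * (1 / 1000 : ℝ) ^ 2 * τ ^ 2 * δ ^ 3 + 7 / 2560 * (1 / 1000 : ℝ) ^ 2 * δ ^ 5 := by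
    unfold Gh; ring
  have h1 : 0 ≤ 7 / 64 * (1 / 1000 : ℝ) ^ 2 * τ ^ 2 * δ ^ 3 := by positivity
  have h2 : 0 ≤ 7 / 2560 * (1 / 1000 : ℝ) ^ 2 * δ ^ 5 := by positivity
  linarith

theorem tt_succ (i : ℕ) : tt (i + 1) = tau i + dd / 2 := by
  unfold tau tt; push_cast; ring

theorem tt_eq (i : ℕ) : tt i = tau i - dd / 2 := by
  unfold tau; ring

theorem tau_sq_le (i : ℕ) (hi : i < NN) : tau i ^ 2 ≤ 1 := by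
  have h1 : (i : ℝ) + 1 ≤ (NN : ℝ) := by exact_mod_cast hi
  have h0 : (0 : ℝ) ≤ (i : ℝ) := Nat.cast_nonneg i
  have hNN : (NN : ℝ) = 4000000 := by norm_num [NN]
  rw [hNN] at h1
  have hlo : -1 ≤ tau i := by unfold tau tt dd; nlinarith
  have hhi : tau i ≤ 1 := by unfold tau tt dd; nlinarith
  nlinarith

/-- Per-term bound. -/
theorem term_le (i : ℕ) (hi : i < NN) :
    dd * RR i ^ 2 / Real.sqrt (1 + ww i)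
      ≤ Gh (tt (i + 1)) - Gh (tt i) + (1 / 1000 : ℝ) ^ 2 * dd ^ 3 / 192 := by
  have hs1 := tau_sq_le i hi
  have hs0 : 0 ≤ tau i ^ 2 := sq_nonneg _
  have hAA : AA i = (1 + tau i ^ 2 - (1 / 2000000 : ℝ) ^ 2 / 4) / 2 := by
    unfold AA
    rw [tt_succ, tt_eq]
    unfold dd
    ring
  have hRR : RR i = 1 / 2 + (1 / 1000 : ℝ) ^ 2 * ((tau i ^ 2 + (tau i ^ 2) ^ 2) / 4 + 1 / 200) := by
    unfold RR cc ee
    ring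
  have hww : ww i = (1 / 1000 : ℝ) ^ 2 * AA i ^ 2 + 2 * (1 / 1000 : ℝ) ^ 2 * tau i ^ 2 := by
    unfold ww cc
    ring
  obtain ⟨hw0, hw1, hpoly⟩ := term_poly (tau i ^ 2) (RR i) (ww i) (AA i) hs0 hs1 hRR hAA hww
  have hinv := inv_sqrt_one_add_le (ww i) hw0 hw1
  have hdd : (0 : ℝ) ≤ dd := by unfold dd; norm_num
  have hR2 : 0 ≤ RR i ^ 2 := sq_nonneg _
  have hmid := midpoint_le (tau i) dd hdd
  rw [tt_succ, tt_eq]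
  calc dd * RR i ^ 2 / Real.sqrt (1 + ww i)
      = dd * (RR i ^ 2 * (1 / Real.sqrt (1 + ww i))) := by ring
    _ ≤ dd * (RR i ^ 2 * (1 - ww i / 2 + 3 * ww i ^ 2 / 8)) :=
        mul_le_mul_of_nonneg_left (mul_le_mul_of_nonneg_left hinv hR2) hdd
    _ ≤ dd * (1 / 4 + (1 / 1000 : ℝ) ^ 2 * (1 / 200 - 1 / 32) + 6 / 5 * (1 / 1000 : ℝ) ^ 4
        + (1 / 1000 : ℝ) ^ 2 * (1 / 2000000 : ℝ) ^ 2 / 32
        - (1 / 1000 : ℝ) ^ 2 * tau i ^ 2 / 16 + 7 / 32 * (1 / 1000 : ℝ) ^ 2 * (tau i ^ 2) ^ 2) :=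
        mul_le_mul_of_nonneg_left hpoly hdd
    _ ≤ _ := hmid

/-- **Area sum bound** for the explicit cover: the total area of the `2 · NN` sectors'
projections is `< 1 - 13/3000 * (1/2000)^2` (half of it per family). -/
theorem area_sum_bound :
    ∑ i ∈ Finset.range NN, dd * RR i ^ 2 / Real.sqrt (1 + ww i)
      ≤ 1 / 2 - 13 / 6000 * (1 / 2000) ^ 2 := by
  have h1 : ∑ i ∈ Finset.range NN, dd * RR i ^ 2 / Real.sqrt (1 + ww i)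
      ≤ ∑ i ∈ Finset.range NN,
          (Gh (tt (i + 1)) - Gh (tt i) + (1 / 1000 : ℝ) ^ 2 * dd ^ 3 / 192) :=
    Finset.sum_le_sum (fun i hi => term_le i (Finset.mem_range.mp hi))
  have h2 : ∑ i ∈ Finset.range NN,
          (Gh (tt (i + 1)) - Gh (tt i) + (1 / 1000 : ℝ) ^ 2 * dd ^ 3 / 192)
      = Gh (tt NN) - Gh (tt 0) + (NN : ℝ) * ((1 / 1000 : ℝ) ^ 2 * dd ^ 3 / 192) := by
    rw [Finset.sum_add_distrib, Finset.sum_range_sub (fun i => Gh (tt i)), Finset.sum_const,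
      Finset.card_range, nsmul_eq_mul]
  have h3 : tt NN = 1 := by unfold tt NN dd; norm_num
  have h4 : tt 0 = -1 := by unfold tt; norm_num
  rw [h2, h3, h4] at h1
  refine h1.trans ?_
  unfold Gh NN dd
  norm_num

end Crest.Agent.Helper6
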