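import Mathlib
import Crest.Prelude.Def_AsymptoticConvexity
import Crest.Prelude.Def_DaugavetL1

/-!
Helper6: consequences of the (rank-one) Daugavet property of a real normed space `V`.

* `slice`          : the slice lemma.
* `core`           : approximate version of "Lemma D" for a continuous linear map into an inner
                     product space (successive choice of points in slices, Blackwell-type averaging).
* `lemmaD`         : for a unit `x`, a closed finite-codimensional subspace `S` and `ε > 0` there is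
                     `u` with `‖u‖ ≤ 1 + ε`, `u - x ∈ S`, `2 - ε ≤ ‖u - x‖`.
-/

set_option autoImplicit false

namespace Crest.Agent.Helper6

open Crest.AnalysisR Crest.AnalysisR.L1Subspace

section General

variable {V : Type*} [NormedAddCommGroup V] [NormedSpace ℝ V]

/-- Slice lemma, normalized functional. -/
theorem slice_unit (hD : HasDaugavetProperty V) (x : V) (hx : ‖x‖ = 1) (φ : V →L[ℝ] ℝ)
    (hφ : ‖φ‖ = 1) (ε : ℝ) (hε : 0 < ε) :
    ∃ u : V, ‖u‖ ≤ 1 ∧ 1 - ε ≤ φ u ∧ 2 - ε ≤ ‖x + u‖ := by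
  have h2 : ‖ContinuousLinearMap.id ℝ V + φ.smulRight x‖ = 2 := by
    rw [hD φ x, ContinuousLinearMap.norm_smulRight_apply, hφ, hx]; norm_num
  obtain ⟨w, hw1, hw2⟩ :=
    (ContinuousLinearMap.id ℝ V + φ.smulRight x).exists_lt_apply_of_lt_opNorm
      (r := 2 - ε / 2) (by rw [h2]; linarith)
  simp only [add_apply, ContinuousLinearMap.id_apply,
    ContinuousLinearMap.smulRight_apply] at hw2
  have key : ∀ w : V, ‖w‖ < 1 → 2 - ε / 2 < ‖w + φ w • x‖ → 0 ≤ φ w →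
      ∃ u : V, ‖u‖ ≤ 1 ∧ 1 - ε ≤ φ u ∧ 2 - ε ≤ ‖x + u‖ := by
    intro w hw1 hw2 hpos
    have h3 : ‖w + φ w • x‖ ≤ ‖w‖ + φ w := by
      calc ‖w + φ w • x‖ ≤ ‖w‖ + ‖φ w • x‖ := norm_add_le _ _
        _ = ‖w‖ + φ w := by rw [norm_smul, hx, mul_one, Real.norm_of_nonneg hpos]
    have h4 : φ w ≤ 1 := by
      have := φ.le_opNorm w
      rw [hφ, one_mul, Real.norm_of_nonneg hpos] at this
      linarith
    refine ⟨w, hw1.le, by linarith, ?_⟩
    have h5 : w + φ w • x = (x + w) + (φ w - 1) • x := by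
      rw [sub_smul, one_smul]; abel
    have h6 : ‖w + φ w • x‖ ≤ ‖x + w‖ + (1 - φ w) := by
      rw [h5]
      calc ‖(x + w) + (φ w - 1) • x‖ ≤ ‖x + w‖ + ‖(φ w - 1) • x‖ := norm_add_le _ _
        _ = ‖x + w‖ + (1 - φ w) := by
          rw [norm_smul, hx, mul_one, Real.norm_eq_abs, abs_sub_comm,
            abs_of_nonneg (by linarith)]
    linarith
  rcases le_total 0 (φ w) with hpos | hneg
  · exact key w hw1 hw2 hpos
  · refine key (-w) (by rwa [norm_neg]) ?_ (by rw [map_neg]; linarith)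
    have : -w + φ (-w) • x = -(w + φ w • x) := by
      rw [map_neg, neg_smul, neg_add]
    rw [this, norm_neg]; exact hw2

/-- Slice lemma, arbitrary functional. -/
theorem slice (hD : HasDaugavetProperty V) (x : V) (hx : ‖x‖ = 1) (φ : V →L[ℝ] ℝ)
    (ε : ℝ) (hε : 0 < ε) :
    ∃ u : V, ‖u‖ ≤ 1 ∧ ‖φ‖ - ε ≤ φ u ∧ 2 - ε ≤ ‖x + u‖ := by
  by_cases h0 : φ = 0
  · refine ⟨x, hx.le, ?_, ?_⟩
    · simp [h0]; linarith
    · rw [← two_smul ℝ x, norm_smul, hx]; norm_num; linarith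
  · have hn : 0 < ‖φ‖ := norm_pos_iff.mpr h0
    obtain ⟨u, hu1, hu2, hu3⟩ := slice_unit hD x hx (‖φ‖⁻¹ • φ)
      (by rw [norm_smul, norm_inv, norm_norm, inv_mul_cancel₀ hn.ne'])
      (min ε (ε / ‖φ‖)) (lt_min hε (div_pos hε hn))
    refine ⟨u, hu1, ?_, ?_⟩
    · have h1 : 1 - ε / ‖φ‖ ≤ ‖φ‖⁻¹ * φ u := by
        have := min_le_right ε (ε / ‖φ‖)
        simp only [smul_apply, smul_eq_mul] at hu2
        linarith
      have h := mul_le_mul_of_nonneg_left h1 hn.le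
      have e1 : ‖φ‖ * (1 - ε / ‖φ‖) = ‖φ‖ - ε := by field_simp
      have e2 : ‖φ‖ * (‖φ‖⁻¹ * φ u) = φ u := by field_simp
      rw [e1, e2] at h
      exact h
    · have := min_le_left ε (ε / ‖φ‖); linarith

theorem norm_combo (a b : V) (ha : ‖a‖ = 1) (hb : ‖b‖ ≤ 1) (ε : ℝ) (h : 2 - ε ≤ ‖a + b‖)
    (α : ℝ) (hα : 0 ≤ α) : α + 1 - ε * max α 1 ≤ ‖α • a + b‖ := by
  rcases le_total α 1 with h1 | h1
  · have e : a + b = (α • a + b) + (1 - α) • a := by rw [sub_smul, one_smul]; abel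
    have : ‖a + b‖ ≤ ‖α • a + b‖ + (1 - α) := by
      calc ‖a + b‖ = ‖(α • a + b) + (1 - α) • a‖ := by rw [← e]
        _ ≤ ‖α • a + b‖ + ‖(1 - α) • a‖ := norm_add_le _ _
        _ = ‖α • a + b‖ + (1 - α) := by
          rw [norm_smul, ha, mul_one, Real.norm_of_nonneg (by linarith)]
    rw [max_eq_right h1]; linarith
  · have e : α • (a + b) = (α • a + b) + (α - 1) • b := by
      rw [sub_smul, one_smul, smul_add]; abel
    have : ‖α • (a + b)‖ ≤ ‖α • a + b‖ + (α - 1) := by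
      calc ‖α • (a + b)‖ = ‖(α • a + b) + (α - 1) • b‖ := by rw [← e]
        _ ≤ ‖α • a + b‖ + ‖(α - 1) • b‖ := norm_add_le _ _
        _ ≤ ‖α • a + b‖ + (α - 1) := by
            have : ‖(α - 1) • b‖ ≤ α - 1 := by
              rw [norm_smul, Real.norm_of_nonneg (by linarith)]
              calc (α - 1) * ‖b‖ ≤ (α - 1) * 1 :=
                    mul_le_mul_of_nonneg_left hb (by linarith)
                _ = α - 1 := mul_one _
            linarith
    rw [norm_smul, Real.norm_of_nonneg hα] at this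
    rw [max_eq_left h1]
    have h' := mul_le_mul_of_nonneg_left h hα
    linarith

/-- Core construction: approximate Lemma D relative to a continuous linear map into an inner
product space, with `ε ≤ 1`. -/
theorem core_aux (hD : HasDaugavetProperty V) {W : Type*} [NormedAddCommGroup W]
    [InnerProductSpace ℝ W] (c : V →L[ℝ] W) (x : V) (hx : ‖x‖ = 1) (ε : ℝ) (hε : 0 < ε)
    (hε1 : ε ≤ 1) (m : ℕ) (hm : 1 ≤ m) :
    ∀ j : ℕ, j ≤ m → ∃ U : V, ‖U‖ ≤ j ∧ (m + j - j * ε : ℝ) ≤ ‖U - (m : ℝ) • x‖ ∧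
      ‖c U - (j : ℝ) • c x‖ ^ 2 ≤ j * (2 + 4 * ‖c‖ ^ 2) := by
  have hm0 : (0 : ℝ) < m := by exact_mod_cast hm
  have hm1 : (1 : ℝ) ≤ m := by exact_mod_cast hm
  intro j
  induction j with
  | zero =>
    intro _
    refine ⟨0, by simp, ?_, by simp⟩
    simp [norm_smul, hx]
  | succ j ih =>
    intro hj
    obtain ⟨U, hU1, hU2, hU3⟩ := ih (by omega)
    have hjm : (j : ℝ) + 1 ≤ m := by exact_mod_cast hj
    have hj0 : (0 : ℝ) ≤ j := Nat.cast_nonneg j
    set Wv : V := U - (m : ℝ) • x with hWv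
    have hWlow : (1 : ℝ) ≤ ‖Wv‖ := by
      have : (j : ℝ) * ε ≤ j * 1 := mul_le_mul_of_nonneg_left hε1 hj0
      linarith
    have hWpos : 0 < ‖Wv‖ := by linarith
    have hWup : ‖Wv‖ ≤ 2 * m := by
      calc ‖Wv‖ ≤ ‖U‖ + ‖(m : ℝ) • x‖ := norm_sub_le _ _
        _ = ‖U‖ + m := by rw [norm_smul, hx, mul_one, Real.norm_of_nonneg hm0.le]
        _ ≤ 2 * m := by linarith
    set a : V := ‖Wv‖⁻¹ • Wv with ha
    have hna : ‖a‖ = 1 := by
      rw [ha, norm_smul, norm_inv, norm_norm, inv_mul_cancel₀ hWpos.ne']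
    have hWa : ‖Wv‖ • a = Wv := by
      rw [ha, smul_smul, mul_inv_cancel₀ hWpos.ne', one_smul]
    set s : W := c U - (j : ℝ) • c x with hs
    set φ : V →L[ℝ] ℝ := -((innerSL ℝ s).comp c) with hφ
    have hφa : ∀ v : V, φ v = - inner ℝ s (c v) := by
      intro v
      simp [hφ, innerSL_apply_apply]
    set ε' : ℝ := ε / (2 * m) with hε'
    have hε'pos : 0 < ε' := by positivity
    have hε'1 : ε' ≤ 1 := by
      rw [hε', div_le_one (by positivity)]
      linarith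
    obtain ⟨u, hu1, hu2, hu3⟩ := slice hD a hna φ ε' hε'pos
    have hcombo := norm_combo a u hna hu1 ε' hu3 ‖Wv‖ hWpos.le
    rw [hWa] at hcombo
    have hmax : ε' * max ‖Wv‖ 1 ≤ ε := by
      have h1 : max ‖Wv‖ 1 ≤ 2 * m := max_le hWup (by linarith)
      calc ε' * max ‖Wv‖ 1 ≤ ε' * (2 * m) := mul_le_mul_of_nonneg_left h1 hε'pos.le
        _ = ε := by rw [hε']; field_simp
    refine ⟨U + u, ?_, ?_, ?_⟩
    · push_cast
      calc ‖U + u‖ ≤ ‖U‖ + ‖u‖ := norm_add_le _ _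
        _ ≤ j + 1 := by linarith
    · have e : U + u - (m : ℝ) • x = Wv + u := by rw [hWv]; abel
      rw [e]
      push_cast
      linarith
    · have e : c (U + u) - ((j + 1 : ℕ) : ℝ) • c x = s + (c u - c x) := by
        rw [hs, map_add]; push_cast; rw [add_smul, one_smul]; abel
      rw [e, norm_add_sq_real]
      have hin : inner ℝ s (c u - c x) ≤ 1 := by
        rw [inner_sub_right]
        have h1 := hφa u
        have h2 := hφa x
        have h3 : φ x ≤ ‖φ‖ := by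
          have := φ.le_opNorm x
          rw [hx, mul_one] at this
          exact (le_abs_self _).trans this
        linarith
      have hd : ‖c u - c x‖ ≤ 2 * ‖c‖ := by
        rw [← map_sub]
        calc ‖c (u - x)‖ ≤ ‖c‖ * ‖u - x‖ := c.le_opNorm _
          _ ≤ ‖c‖ * 2 := by
            apply mul_le_mul_of_nonneg_left _ (norm_nonneg _)
            calc ‖u - x‖ ≤ ‖u‖ + ‖x‖ := norm_sub_le _ _
              _ ≤ 2 := by linarith
          _ = 2 * ‖c‖ := by ring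
      have hd2 : ‖c u - c x‖ ^ 2 ≤ 4 * ‖c‖ ^ 2 := by
        have := pow_le_pow_left₀ (norm_nonneg _) hd 2
        calc ‖c u - c x‖ ^ 2 ≤ (2 * ‖c‖) ^ 2 := this
          _ = 4 * ‖c‖ ^ 2 := by ring
      push_cast
      linarith

/-- Core construction: approximate Lemma D relative to a continuous linear map into an inner
product space. -/
theorem core (hD : HasDaugavetProperty V) {W : Type*} [NormedAddCommGroup W]
    [InnerProductSpace ℝ W] (c : V →L[ℝ] W) (x : V) (hx : ‖x‖ = 1) (ε δ : ℝ) (hε : 0 < ε)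
    (hδ : 0 < δ) : ∃ u : V, ‖u‖ ≤ 1 ∧ ‖c u - c x‖ ≤ δ ∧ 2 - ε ≤ ‖u - x‖ := by
  set C : ℝ := 2 + 4 * ‖c‖ ^ 2 with hC
  have hCpos : 0 < C := by positivity
  obtain ⟨m, hm⟩ := exists_nat_gt (max 1 (C / δ ^ 2))
  have hm1' : (1 : ℝ) < m := lt_of_le_of_lt (le_max_left _ _) hm
  have hm1 : 1 ≤ m := by exact_mod_cast hm1'.le
  have hm0 : (0 : ℝ) < m := by linarith
  have hmC : C ≤ m * δ ^ 2 := by
    have := lt_of_le_of_lt (le_max_right 1 (C / δ ^ 2)) hm
    rw [div_lt_iff₀ (by positivity)] at this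
    exact this.le
  set ε₀ : ℝ := min ε 1 with hε₀
  have hε₀pos : 0 < ε₀ := lt_min hε one_pos
  obtain ⟨U, hU1, hU2, hU3⟩ := core_aux hD c x hx ε₀ hε₀pos (min_le_right _ _) m hm1 m le_rfl
  refine ⟨(m : ℝ)⁻¹ • U, ?_, ?_, ?_⟩
  · rw [norm_smul, norm_inv, Real.norm_of_nonneg hm0.le, inv_mul_le_iff₀ hm0]
    linarith
  · have e : c ((m : ℝ)⁻¹ • U) - c x = (m : ℝ)⁻¹ • (c U - (m : ℝ) • c x) := by
      rw [map_smul, smul_sub, smul_smul, inv_mul_cancel₀ hm0.ne', one_smul]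
    rw [e, norm_smul, norm_inv, Real.norm_of_nonneg hm0.le, inv_mul_le_iff₀ hm0]
    have h1 : ‖c U - (m : ℝ) • c x‖ ^ 2 ≤ (m * δ) ^ 2 := by
      calc ‖c U - (m : ℝ) • c x‖ ^ 2 ≤ m * C := hU3
        _ ≤ m * (m * δ ^ 2) := mul_le_mul_of_nonneg_left hmC hm0.le
        _ = (m * δ) ^ 2 := by ring
    exact le_of_sq_le_sq h1 (by positivity)
  · have e : (m : ℝ)⁻¹ • U - x = (m : ℝ)⁻¹ • (U - (m : ℝ) • x) := by
      rw [smul_sub, smul_smul, inv_mul_cancel₀ hm0.ne', one_smul]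
    rw [e, norm_smul, norm_inv, Real.norm_of_nonneg hm0.le, le_inv_mul_iff₀ hm0]
    have h1 : ε₀ ≤ ε := min_le_left _ _
    have h2 : (m : ℝ) * ε₀ ≤ m * ε := mul_le_mul_of_nonneg_left h1 hm0.le
    linarith

/-- **Lemma D**: in a space with the (rank-one) Daugavet property, for a unit vector `x`, a closed
finite-codimensional subspace `S` and `ε > 0` there is `u` with `‖u‖ ≤ 1 + ε`, `u - x ∈ S` and
`‖u - x‖ ≥ 2 - ε`. -/
theorem lemmaD (hD : HasDaugavetProperty V) (S : Submodule ℝ V) (hS : IsClosed (S : Set V))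
    (hfd : FiniteDimensional ℝ (V ⧸ S)) (x : V) (hx : ‖x‖ = 1) (ε : ℝ) (hε : 0 < ε) :
    ∃ u : V, ‖u‖ ≤ 1 + ε ∧ u - x ∈ S ∧ 2 - ε ≤ ‖u - x‖ := by
  have : IsClosed (S : Set V) := hS
  let e : (V ⧸ S) ≃L[ℝ] EuclideanSpace ℝ (Fin (Module.finrank ℝ (V ⧸ S))) := toEuclidean
  let c : V →L[ℝ] EuclideanSpace ℝ (Fin (Module.finrank ℝ (V ⧸ S))) :=
    (e : (V ⧸ S) →L[ℝ] EuclideanSpace ℝ (Fin (Module.finrank ℝ (V ⧸ S)))).comp S.mkQL
  obtain ⟨g₁, hg₁⟩ := LinearMap.exists_rightInverse_of_surjective S.mkQ (Submodule.range_mkQ S)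
  let g₀ : EuclideanSpace ℝ (Fin (Module.finrank ℝ (V ⧸ S))) →ₗ[ℝ] V :=
    g₁.comp (e.symm : EuclideanSpace ℝ (Fin (Module.finrank ℝ (V ⧸ S))) →ₗ[ℝ] (V ⧸ S))
  let g : EuclideanSpace ℝ (Fin (Module.finrank ℝ (V ⧸ S))) →L[ℝ] V :=
    LinearMap.toContinuousLinearMap g₀
  have hcg : ∀ z, c (g z) = z := by
    intro z
    have h1 : S.mkQ (g₁ (e.symm z)) = e.symm z := by
      have := congrArg (fun f => f (e.symm z)) hg₁
      simpa using this
    show e (S.mkQL (g₁ (e.symm z))) = z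
    rw [Submodule.mkQL_apply, h1, ContinuousLinearEquiv.apply_symm_apply]
  have hker : ∀ v : V, c v = 0 → v ∈ S := by
    intro v hv
    have h1 : e (S.mkQL v) = 0 := hv
    have h2 : S.mkQL v = 0 := by
      rwa [map_eq_zero_iff e e.injective] at h1
    rw [Submodule.mkQL_apply, Submodule.mkQ_apply, Submodule.Quotient.mk_eq_zero] at h2
    exact h2
  set δ : ℝ := ε / (2 * (‖g‖ + 1)) with hδ
  have hgpos : 0 < ‖g‖ + 1 := by positivity
  have hδpos : 0 < δ := by positivity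
  obtain ⟨u₀, hu1, hu2, hu3⟩ := core hD c x hx (ε / 2) δ (by positivity) hδpos
  have hcorr : ‖g (c u₀ - c x)‖ ≤ ε / 2 := by
    calc ‖g (c u₀ - c x)‖ ≤ ‖g‖ * ‖c u₀ - c x‖ := g.le_opNorm _
      _ ≤ ‖g‖ * δ := mul_le_mul_of_nonneg_left hu2 (norm_nonneg _)
      _ ≤ (‖g‖ + 1) * δ := by nlinarith
      _ = ε / 2 := by rw [hδ]; field_simp
  refine ⟨u₀ - g (c u₀ - c x), ?_, ?_, ?_⟩
  · calc ‖u₀ - g (c u₀ - c x)‖ ≤ ‖u₀‖ + ‖g (c u₀ - c x)‖ := norm_sub_le _ _
      _ ≤ 1 + ε := by linarith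
  · apply hker
    rw [map_sub, map_sub, hcg]
    abel
  · have e1 : u₀ - x = (u₀ - g (c u₀ - c x) - x) + g (c u₀ - c x) := by abel
    have : ‖u₀ - x‖ ≤ ‖u₀ - g (c u₀ - c x) - x‖ + ‖g (c u₀ - c x)‖ := by
      calc ‖u₀ - x‖ = ‖(u₀ - g (c u₀ - c x) - x) + g (c u₀ - c x)‖ := by rw [← e1]
        _ ≤ _ := norm_add_le _ _
    linarith

/-- A unit direction in `S` along which the norm stays small up to parameter `≈ 2`. -/
theorem dir_exists (hD : HasDaugavetProperty V) (S : Submodule ℝ V) (hS : IsClosed (S : Set V))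
    (hfd : FiniteDimensional ℝ (V ⧸ S)) (x : V) (hx : ‖x‖ = 1) (ε : ℝ) (hε : 0 < ε)
    (hε1 : ε ≤ 1) (t : ℝ) (ht : 0 < t) :
    ∃ y ∈ S, ‖y‖ = 1 ∧ ∃ r : ℝ, 2 - ε ≤ r ∧ ‖x + t • y‖ ≤ |1 - t / r| + t / r * (1 + ε) := by
  obtain ⟨u, hu1, hu2, hu3⟩ := lemmaD hD S hS hfd x hx ε hε
  have hr : 0 < ‖u - x‖ := by linarith
  refine ⟨‖u - x‖⁻¹ • (u - x), S.smul_mem _ hu2, ?_, ‖u - x‖, hu3, ?_⟩
  · rw [norm_smul, norm_inv, norm_norm, inv_mul_cancel₀ hr.ne']
  · have e : x + t • ‖u - x‖⁻¹ • (u - x) = (1 - t / ‖u - x‖) • x + (t / ‖u - x‖) • u := by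
      rw [smul_smul, ← div_eq_mul_inv, smul_sub, sub_smul, one_smul]; abel
    rw [e]
    calc ‖(1 - t / ‖u - x‖) • x + (t / ‖u - x‖) • u‖
        ≤ ‖(1 - t / ‖u - x‖) • x‖ + ‖(t / ‖u - x‖) • u‖ := norm_add_le _ _
      _ = |1 - t / ‖u - x‖| + t / ‖u - x‖ * ‖u‖ := by
          rw [norm_smul, norm_smul, hx, mul_one, Real.norm_eq_abs, Real.norm_of_nonneg (by positivity)]
      _ ≤ |1 - t / ‖u - x‖| + t / ‖u - x‖ * (1 + ε) := by
          have : t / ‖u - x‖ * ‖u‖ ≤ t / ‖u - x‖ * (1 + ε) :=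
            mul_le_mul_of_nonneg_left hu1 (by positivity)
          linarith

/-- Upper bound for the averaged midpoint quantity (general form). -/
theorem midpoint_le_general (hD : HasDaugavetProperty V) (t : ℝ) (ht : 0 < t) (x : V)
    (hx : ‖x‖ = 1) (S : Submodule ℝ V) (hS : IsClosed (S : Set V))
    (hfd : FiniteDimensional ℝ (V ⧸ S)) (η : ℝ) (hη : 0 < η) :
    ∃ y ∈ S, ‖y‖ = 1 ∧ (‖x + t • y‖ + ‖x - t • y‖) / 2 - 1 ≤ max (t / 2) (t - 1) + η := by
  set ε : ℝ := min 1 (min η (η / (2 * t))) with hεdef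
  have hεpos : 0 < ε := lt_min one_pos (lt_min hη (by positivity))
  have hε1 : ε ≤ 1 := min_le_left _ _
  have hεη : ε ≤ η := (min_le_right _ _).trans (min_le_left _ _)
  have hεt : 2 * t * ε ≤ η := by
    have h : ε ≤ η / (2 * t) := (min_le_right _ _).trans (min_le_right _ _)
    rw [le_div_iff₀ (by positivity)] at h
    linarith
  obtain ⟨y, hyS, hy1, r, hr, hb⟩ := dir_exists hD S hS hfd x hx ε hεpos hε1 t ht
  refine ⟨y, hyS, hy1, ?_⟩
  have hminus : ‖x - t • y‖ ≤ 1 + t := by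
    calc ‖x - t • y‖ ≤ ‖x‖ + ‖t • y‖ := norm_sub_le _ _
      _ = 1 + t := by rw [norm_smul, hx, hy1, mul_one, Real.norm_of_nonneg ht.le]
  have hrpos : 0 < r := by linarith
  have hr1 : 1 ≤ r := by linarith
  set s : ℝ := t / r with hs
  have hspos : 0 < s := by positivity
  have hsr : s * r = t := by rw [hs]; field_simp
  have hst : s ≤ t := by nlinarith
  rcases le_total s 1 with h1 | h1
  · rw [abs_of_nonneg (by linarith)] at hb
    have h2 : s * ε ≤ ε := by nlinarith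
    have : t / 2 ≤ max (t / 2) (t - 1) := le_max_left _ _
    linarith
  · rw [abs_of_nonpos (by linarith)] at hb
    have h2 : t - 1 ≤ max (t / 2) (t - 1) := le_max_right _ _
    have h3 : s * (2 - ε) ≤ t := by nlinarith
    have h4 : s * ε ≤ t * ε := mul_le_mul_of_nonneg_right hst hεpos.le
    nlinarith

/-- Upper bound for the one-sided quantity (general form). -/
theorem oneSided_le_general (hD : HasDaugavetProperty V) (t : ℝ) (ht : 0 < t) (x : V)
    (hx : ‖x‖ = 1) (S : Submodule ℝ V) (hS : IsClosed (S : Set V))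
    (hfd : FiniteDimensional ℝ (V ⧸ S)) (η : ℝ) (hη : 0 < η) :
    ∃ y ∈ S, ‖y‖ = 1 ∧ ‖x + t • y‖ - 1 ≤ max 0 (t - 2) + η := by
  set ε : ℝ := min 1 (min η (η / (2 * t))) with hεdef
  have hεpos : 0 < ε := lt_min one_pos (lt_min hη (by positivity))
  have hε1 : ε ≤ 1 := min_le_left _ _
  have hεη : ε ≤ η := (min_le_right _ _).trans (min_le_left _ _)
  have hεt : 2 * t * ε ≤ η := by
    have h : ε ≤ η / (2 * t) := (min_le_right _ _).trans (min_le_right _ _)
    rw [le_div_iff₀ (by positivity)] at h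
    linarith
  obtain ⟨y, hyS, hy1, r, hr, hb⟩ := dir_exists hD S hS hfd x hx ε hεpos hε1 t ht
  refine ⟨y, hyS, hy1, ?_⟩
  have hrpos : 0 < r := by linarith
  have hr1 : 1 ≤ r := by linarith
  set s : ℝ := t / r with hs
  have hspos : 0 < s := by positivity
  have hsr : s * r = t := by rw [hs]; field_simp
  have hst : s ≤ t := by nlinarith
  rcases le_total s 1 with h1 | h1
  · rw [abs_of_nonneg (by linarith)] at hb
    have h2 : s * ε ≤ ε := by nlinarith
    have : (0 : ℝ) ≤ max 0 (t - 2) := le_max_left _ _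
    linarith
  · rw [abs_of_nonpos (by linarith)] at hb
    have h2 : t - 2 ≤ max 0 (t - 2) := le_max_right _ _
    have h3 : s * (2 - ε) ≤ t := by nlinarith
    have h4 : s * ε ≤ t * ε := mul_le_mul_of_nonneg_right hst hεpos.le
    nlinarith

/-- No equivalent asymptotically uniformly convex norm (general form). -/
theorem no_auc_general (hD : HasDaugavetProperty V) (hnt : ∃ x : V, x ≠ 0) (N : V → ℝ)
    (hsub : ∀ x y : V, N (x + y) ≤ N x + N y) (hhom : ∀ (a : ℝ) (x : V), N (a • x) = |a| * N x)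
    (a b : ℝ) (ha : 0 < a) (hab : ∀ x : V, a * ‖x‖ ≤ N x ∧ N x ≤ b * ‖x‖)
    (hauc : ∀ t : ℝ, 0 < t → ∃ c : ℝ, 0 < c ∧ ∀ x : V, N x = 1 →
      ∃ S : Submodule ℝ V, IsClosed (S : Set V) ∧ FiniteDimensional ℝ (V ⧸ S) ∧
        ∀ y ∈ S, N y = 1 → c ≤ N (x + t • y) - 1) : False := by
  obtain ⟨x₁, hx₁⟩ := hnt
  have hx₁n : 0 < ‖x₁‖ := norm_pos_iff.mpr hx₁
  set x₀ : V := ‖x₁‖⁻¹ • x₁ with hx₀
  have hx₀1 : ‖x₀‖ = 1 := by
    rw [hx₀, norm_smul, norm_inv, norm_norm, inv_mul_cancel₀ hx₁n.ne']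
  have hb : a ≤ b := by
    have := hab x₀
    rw [hx₀1, mul_one, mul_one] at this
    exact this.1.trans this.2
  have hbpos : 0 < b := lt_of_lt_of_le ha hb
  set T : Set ℝ := {r | ∃ x : V, ‖x‖ = 1 ∧ N x = r} with hT
  have hTne : T.Nonempty := ⟨N x₀, x₀, hx₀1, rfl⟩
  have hTbdd : BddAbove T := by
    refine ⟨b, ?_⟩
    rintro r ⟨x, hx, rfl⟩
    have := (hab x).2
    rwa [hx, mul_one] at this
  set M : ℝ := sSup T with hM
  have hMa : a ≤ M := by
    have h1 : N x₀ ≤ M := le_csSup hTbdd ⟨x₀, hx₀1, rfl⟩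
    have h2 := (hab x₀).1
    rw [hx₀1, mul_one] at h2
    linarith
  have hMpos : 0 < M := lt_of_lt_of_le ha hMa
  have hNM : ∀ v : V, N v ≤ M * ‖v‖ := by
    intro v
    by_cases hv : v = 0
    · subst hv
      have : N (0 : V) = 0 := by
        have := hhom 0 (0 : V)
        simpa using this
      rw [this, norm_zero, mul_zero]
    · have hvn : 0 < ‖v‖ := norm_pos_iff.mpr hv
      have h1 : ‖‖v‖⁻¹ • v‖ = 1 := by
        rw [norm_smul, norm_inv, norm_norm, inv_mul_cancel₀ hvn.ne']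
      have h2 : N (‖v‖⁻¹ • v) ≤ M := le_csSup hTbdd ⟨_, h1, rfl⟩
      rw [hhom, abs_of_nonneg (inv_nonneg.mpr hvn.le), inv_mul_le_iff₀ hvn] at h2
      linarith [mul_comm M ‖v‖]
  have ht0 : 0 < a / b := div_pos ha hbpos
  obtain ⟨c, hc, hF⟩ := hauc (a / b) ht0
  set ε : ℝ := c / (2 + c) with hε
  have hεpos : 0 < ε := by positivity
  have hε1 : ε ≤ 1 := by
    rw [hε, div_le_one (by positivity)]; linarith
  have hkey : (1 + c) * (1 - ε) = 1 + ε := by
    rw [hε]; field_simp; ring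
  obtain ⟨_, ⟨x, hx, rfl⟩, hxM⟩ :=
    exists_lt_of_lt_csSup hTne (show (1 - ε) * M < sSup T by nlinarith)
  have hNx : 0 < N x := by
    have := (hab x).1
    rw [hx, mul_one] at this
    linarith
  have hNxb : N x ≤ b := by
    have := (hab x).2
    rwa [hx, mul_one] at this
  have hxhat : N ((N x)⁻¹ • x) = 1 := by
    rw [hhom, abs_of_nonneg (inv_nonneg.mpr hNx.le), inv_mul_cancel₀ hNx.ne']
  obtain ⟨S, hScl, hSfd, hS⟩ := hF _ hxhat
  obtain ⟨u, hu1, hu2, hu3⟩ := lemmaD hD S hScl hSfd x hx ε hεpos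
  set d : V := u - x with hd
  have hdn : 1 ≤ ‖d‖ := by linarith
  have hNd : a ≤ N d := by
    have := (hab d).1
    nlinarith
  have hNdpos : 0 < N d := lt_of_lt_of_le ha hNd
  have hyhat : N ((N d)⁻¹ • d) = 1 := by
    rw [hhom, abs_of_nonneg (inv_nonneg.mpr hNdpos.le), inv_mul_cancel₀ hNdpos.ne']
  have h1 := hS _ (S.smul_mem _ hu2) hyhat
  have hs : a / b ≤ N d / N x := by
    rw [div_le_div_iff₀ hbpos hNx]
    nlinarith
  have hspos : 0 < N d / N x := div_pos hNdpos hNx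
  set lam : ℝ := (a / b) / (N d / N x) with hlam
  have hlampos : 0 < lam := div_pos ht0 hspos
  have hlam1 : lam ≤ 1 := by
    rw [hlam, div_le_one hspos]; exact hs
  have hlams : lam * (N d / N x) = a / b := by
    rw [hlam]; field_simp
  have e : (N x)⁻¹ • x + (a / b) • (N d)⁻¹ • d
      = (1 - lam) • ((N x)⁻¹ • x) + lam • ((N x)⁻¹ • u) := by
    have hu : u = x + d := by rw [hd]; abel
    have hcoef : lam * (N x)⁻¹ = a / b * (N d)⁻¹ := by
      rw [← hlams]; field_simp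
    rw [hu, smul_add, smul_add, ← add_assoc, ← add_smul, sub_add_cancel, one_smul, smul_smul,
      smul_smul, hcoef]
  have h2 : N ((N x)⁻¹ • x + (a / b) • (N d)⁻¹ • d) ≤ (1 - lam) + lam * (N u / N x) := by
    rw [e]
    calc N ((1 - lam) • ((N x)⁻¹ • x) + lam • ((N x)⁻¹ • u))
        ≤ N ((1 - lam) • ((N x)⁻¹ • x)) + N (lam • ((N x)⁻¹ • u)) := hsub _ _
      _ = (1 - lam) + lam * (N u / N x) := by
        have hA : N ((1 - lam) • ((N x)⁻¹ • x)) = 1 - lam := by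
          rw [hhom, hxhat, abs_of_nonneg (by linarith), mul_one]
        have hB : N (lam • ((N x)⁻¹ • u)) = lam * (N u / N x) := by
          rw [hhom, hhom, abs_of_nonneg hlampos.le, abs_of_nonneg (inv_nonneg.mpr hNx.le)]
          ring
        rw [hA, hB]
  have h3 : c ≤ lam * (N u / N x - 1) := by linarith
  have h4 : c ≤ N u / N x - 1 := by
    have h0 : 0 ≤ N u / N x - 1 := by
      by_contra hneg
      rw [not_le] at hneg
      nlinarith
    nlinarith
  have h5 : (1 + c) * N x ≤ N u := by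
    have : 1 + c ≤ N u / N x := by linarith
    rwa [le_div_iff₀ hNx] at this
  have h6 : N u ≤ M * (1 + ε) := (hNM u).trans (mul_le_mul_of_nonneg_left hu1 hMpos.le)
  have h7 : (1 + c) * ((1 - ε) * M) < (1 + c) * N x :=
    mul_lt_mul_of_pos_left hxM (by linarith)
  have h8 : (1 + c) * ((1 - ε) * M) = M * (1 + ε) := by
    rw [← mul_assoc, hkey]; ring
  linarith

end General

section Banach

/-- Upper bound for the averaged midpoint modulus in a `RealBanach` with the Daugavet property. -/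
theorem midpointLE_of_daugavet (B : RealBanach)
    (hD : @HasDaugavetProperty B.X B.normed B.space) (t : ℝ) (ht : 0 < t) :
    B.MidpointModulusLE B.norm t (max (t / 2) (t - 1)) := by
  let _ := B.normed
  let _ := B.space
  intro x hx F hF η hη
  obtain ⟨S, rfl, hScl, hSfd⟩ := hF
  obtain ⟨y, hyS, hy1, hy⟩ := midpoint_le_general hD t ht x hx S hScl hSfd η hη
  exact ⟨y, hyS, hy1, hy⟩

/-- Upper bound for the one-sided modulus in a `RealBanach` with the Daugavet property. -/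
theorem oneSidedLE_of_daugavet (B : RealBanach)
    (hD : @HasDaugavetProperty B.X B.normed B.space) (t : ℝ) (ht : 0 < t) :
    B.OneSidedModulusLE B.norm t (max 0 (t - 2)) := by
  let _ := B.normed
  let _ := B.space
  intro x hx F hF η hη
  obtain ⟨S, rfl, hScl, hSfd⟩ := hF
  obtain ⟨y, hyS, hy1, hy⟩ := oneSided_le_general hD t ht x hx S hScl hSfd η hη
  exact ⟨y, hyS, hy1, hy⟩

/-- A nonzero `RealBanach` with the Daugavet property has no equivalent AUC norm. -/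
theorem noAUC_of_daugavet (B : RealBanach)
    (hD : @HasDaugavetProperty B.X B.normed B.space) (hnt : ∃ x y : B.X, x ≠ y) :
    ∀ N : B.X → ℝ, B.IsEquivNorm N → ¬ B.IsAUC N := by
  let _ := B.normed
  let _ := B.space
  intro N hN hAUC
  obtain ⟨hsub, hhom, a, b, ha, hab⟩ := hN
  have hnt' : ∃ x : B.X, x ≠ 0 := by
    obtain ⟨x, y, hxy⟩ := hnt
    exact ⟨x - y, sub_ne_zero.mpr hxy⟩
  refine no_auc_general hD hnt' N hsub hhom a b ha hab ?_
  intro t ht
  obtain ⟨c, hc, h⟩ := hAUC t ht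
  refine ⟨c, hc, fun x hx => ?_⟩
  obtain ⟨F, ⟨S, rfl, hScl, hSfd⟩, hF⟩ := h x hx
  exact ⟨S, hScl, hSfd, hF⟩

end Banach

end Crest.Agent.Helper6
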