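import Mathlib
import Crest.Prelude.Def_AsymptoticConvexity
import Crest.Prelude.Def_DaugavetL1
import Crest.Agent.Helper6.Daugavet

/-!
Helper6: parts (b), (d), (e) of statement S0167 — the upper bounds for the averaged midpoint and
one-sided asymptotic moduli and the absence of equivalent AUC norms, for a closed subspace of
`L¹` with the (rank-one) Daugavet property.
-/

set_option autoImplicit false

namespace Crest.Agent.Helper6

open Crest.AnalysisR Crest.AnalysisR.L1Subspace

variable {Ω : Type} [MeasurableSpace Ω] (P : MeasureTheory.Measure Ω)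
  (E : Submodule ℝ (MeasureTheory.Lp ℝ 1 P)) (hcl : IsClosed (E : Set (MeasureTheory.Lp ℝ 1 P)))

theorem midpointLE (hD : Crest.AnalysisR.L1Subspace.HasDaugavetProperty E) (t : ℝ) (ht : 0 < t) :
    (Crest.AnalysisR.L1Subspace.toRealBanach P E hcl).MidpointModulusLE
      (Crest.AnalysisR.L1Subspace.toRealBanach P E hcl).norm t (max (t / 2) (t - 1)) :=
  midpointLE_of_daugavet (toRealBanach P E hcl) hD t ht

theorem oneSidedLE (hD : Crest.AnalysisR.L1Subspace.HasDaugavetProperty E) (t : ℝ) (ht : 0 < t) :
    (Crest.AnalysisR.L1Subspace.toRealBanach P E hcl).OneSidedModulusLE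
      (Crest.AnalysisR.L1Subspace.toRealBanach P E hcl).norm t (max 0 (t - 2)) :=
  oneSidedLE_of_daugavet (toRealBanach P E hcl) hD t ht

theorem noAUC (hinf : ¬ FiniteDimensional ℝ E)
    (hD : Crest.AnalysisR.L1Subspace.HasDaugavetProperty E) :
    ∀ N : E → ℝ, (Crest.AnalysisR.L1Subspace.toRealBanach P E hcl).IsEquivNorm N →
      ¬ (Crest.AnalysisR.L1Subspace.toRealBanach P E hcl).IsAUC N := by
  refine noAUC_of_daugavet (toRealBanach P E hcl) hD ?_
  by_contra h
  apply hinf
  have hsub : Subsingleton E := ⟨fun x y => by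
    by_contra hxy
    exact h ⟨x, y, hxy⟩⟩
  infer_instance

end Crest.Agent.Helper6
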