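import Mathlib

/-!
Helper6, row 211 (S0328, fan lemma): algebra in `ℝ³` — `3 × 3` determinants, Gram determinants of
pairs, projection along a direction.
-/

set_option autoImplicit false

namespace Crest.Agent.Helper6.Fan

/-- Euclidean three-space. -/
abbrev E3 := EuclideanSpace ℝ (Fin 3)

/-- The `3 × 3` determinant with rows `a`, `b`, `c`. -/
noncomputable def det3 (a b c : E3) : ℝ :=
  a 0 * (b 1 * c 2 - b 2 * c 1) - a 1 * (b 0 * c 2 - b 2 * c 0) + a 2 * (b 0 * c 1 - b 1 * c 0)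

/-- The Gram determinant of a pair of vectors. -/
noncomputable def gram (a b : E3) : ℝ := ‖a‖ ^ 2 * ‖b‖ ^ 2 - (inner ℝ a b) ^ 2

/-- Projection along the direction `d` (orthogonal projection onto `d^⊥` when `d ≠ 0`). -/
noncomputable def proj (d : E3) (y : E3) : E3 := y - (inner ℝ y d / ‖d‖ ^ 2) • d

theorem inner3 (x y : E3) : inner ℝ x y = x 0 * y 0 + x 1 * y 1 + x 2 * y 2 := by
  simp [PiLp.inner_apply, Fin.sum_univ_three]; ring

theorem normsq3 (x : E3) : ‖x‖ ^ 2 = x 0 ^ 2 + x 1 ^ 2 + x 2 ^ 2 := by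
  rw [EuclideanSpace.norm_sq_eq]; simp [Fin.sum_univ_three]

theorem gram_nonneg (a b : E3) : 0 ≤ gram a b := by
  unfold gram
  have h := real_inner_mul_inner_self_le a b
  rw [real_inner_self_eq_norm_sq, real_inner_self_eq_norm_sq] at h
  nlinarith

theorem gram_smul (s : ℝ) (x y : E3) : gram (s • x) (s • y) = s ^ 4 * gram x y := by
  unfold gram
  rw [norm_smul, norm_smul, inner_smul_left, inner_smul_right, Real.norm_eq_abs]
  have h : |s| ^ 2 = s ^ 2 := sq_abs s
  simp only [conj_trivial]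
  calc (|s| * ‖x‖) ^ 2 * (|s| * ‖y‖) ^ 2 - (s * (s * inner ℝ x y)) ^ 2
      = |s| ^ 2 * |s| ^ 2 * (‖x‖ ^ 2 * ‖y‖ ^ 2) - s ^ 4 * (inner ℝ x y) ^ 2 := by ring
    _ = s ^ 4 * (‖x‖ ^ 2 * ‖y‖ ^ 2 - inner ℝ x y ^ 2) := by rw [h]; ring

theorem gram_line (a b : E3) (t₁ t₂ : ℝ) :
    gram (a + t₁ • b) (a + t₂ • b) = (t₂ - t₁) ^ 2 * gram a b := by
  unfold gram
  simp only [inner3, normsq3, PiLp.add_apply, PiLp.smul_apply, smul_eq_mul]
  ring

theorem det3_sq (x y e : E3) :
    det3 x y e ^ 2 = ‖e‖ ^ 2 * gram x y + 2 * inner ℝ x y * inner ℝ y e * inner ℝ x e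
      - ‖x‖ ^ 2 * (inner ℝ y e) ^ 2 - ‖y‖ ^ 2 * (inner ℝ x e) ^ 2 := by
  unfold gram det3
  simp only [inner3, normsq3]
  ring

theorem det3_pairing (x y z e : E3) :
    det3 x y z * ‖e‖ ^ 2 =
      inner ℝ x e * det3 e y z + inner ℝ y e * det3 x e z + inner ℝ z e * det3 x y e := by
  unfold det3
  simp only [inner3, normsq3]
  ring

theorem det3_sq_of_orth (e x y : E3) (he : ‖e‖ = 1) (hx : inner ℝ x e = 0)
    (hy : inner ℝ y e = 0) : det3 x y e ^ 2 = gram x y := by
  rw [det3_sq, hx, hy, he]; ring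

theorem det3_eq_zero_of_orth (e x y z : E3) (he : ‖e‖ = 1) (hx : inner ℝ x e = 0)
    (hy : inner ℝ y e = 0) (hz : inner ℝ z e = 0) : det3 x y z = 0 := by
  have h := det3_pairing x y z e
  rw [hx, hy, hz, he] at h
  linarith

theorem det3_add_right (x y u v : E3) : det3 x y (u + v) = det3 x y u + det3 x y v := by
  unfold det3
  simp only [PiLp.add_apply]
  ring

theorem cramer (a b e y : E3) :
    det3 a b e • y = det3 y b e • a + det3 a y e • b + det3 a b y • e := by
  ext i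
  fin_cases i <;> simp [det3] <;> ring

theorem decomp (e a b y : E3) (he : ‖e‖ = 1) (ha : inner ℝ a e = 0) (hb : inner ℝ b e = 0)
    (hy : inner ℝ y e = 0) : det3 a b e • y = det3 y b e • a + det3 a y e • b := by
  have h := cramer a b e y
  rw [det3_eq_zero_of_orth e a b y he ha hb hy, zero_smul, add_zero] at h
  exact h

theorem proj_add (d x y : E3) : proj d (x + y) = proj d x + proj d y := by
  unfold proj
  rw [inner_add_left, add_div, add_smul]
  abel

theorem proj_smul (d : E3) (s : ℝ) (x : E3) : proj d (s • x) = s • proj d x := by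
  unfold proj
  rw [inner_smul_left, smul_sub, smul_smul]
  simp only [conj_trivial]
  rw [mul_div_assoc]

theorem proj_sub (d x y : E3) : proj d (x - y) = proj d x - proj d y := by
  have h := proj_add d (x - y) y
  rw [sub_add_cancel] at h
  rw [h, add_sub_cancel_right]

theorem proj_isLinear (d : E3) : IsLinearMap ℝ (proj d) :=
  ⟨proj_add d, proj_smul d⟩

theorem proj_self (d : E3) (hd : d ≠ 0) : proj d d = 0 := by
  unfold proj
  have hn : ‖d‖ ^ 2 ≠ 0 := by positivity
  rw [real_inner_self_eq_norm_sq, div_self hn, one_smul, sub_self]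

theorem inner_proj (d y : E3) (hd : d ≠ 0) : inner ℝ (proj d y) d = 0 := by
  unfold proj
  have hn : ‖d‖ ^ 2 ≠ 0 := by positivity
  rw [inner_sub_left, inner_smul_left, real_inner_self_eq_norm_sq]
  simp only [conj_trivial]
  field_simp
  ring

theorem det3_proj (d x y : E3) : det3 (proj d x) (proj d y) d = det3 x y d := by
  unfold proj det3
  simp only [PiLp.sub_apply, PiLp.smul_apply, smul_eq_mul]
  ring

theorem gram_proj_general (x y d : E3) (hd : d ≠ 0) :
    ‖d‖ ^ 2 * gram (proj d x) (proj d y) = det3 x y d ^ 2 := by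
  have h := det3_sq (proj d x) (proj d y) d
  rw [inner_proj d x hd, inner_proj d y hd, det3_proj] at h
  rw [h]; ring

theorem normsq_e_add (e w₀ : E3) (he : ‖e‖ = 1) (hw : inner ℝ w₀ e = 0) :
    ‖e + w₀‖ ^ 2 = 1 + ‖w₀‖ ^ 2 := by
  rw [norm_add_sq_real, he, real_inner_comm, hw]; ring

theorem e_add_ne_zero (e w₀ : E3) (he : ‖e‖ = 1) (hw : inner ℝ w₀ e = 0) : e + w₀ ≠ 0 := by
  intro h
  have h1 := normsq_e_add e w₀ he hw
  rw [h, norm_zero] at h1
  nlinarith [sq_nonneg ‖w₀‖]

/-- Projection along `e + w₀` scales Gram determinants of pairs in `e^⊥` by `1 / (1 + ‖w₀‖²)`. -/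
theorem gram_proj (e w₀ x y : E3) (he : ‖e‖ = 1) (hx : inner ℝ x e = 0) (hy : inner ℝ y e = 0)
    (hw : inner ℝ w₀ e = 0) :
    gram (proj (e + w₀) x) (proj (e + w₀) y) = gram x y / (1 + ‖w₀‖ ^ 2) := by
  have hd := e_add_ne_zero e w₀ he hw
  have h := gram_proj_general x y (e + w₀) hd
  rw [det3_add_right, det3_eq_zero_of_orth e x y w₀ he hx hy hw, add_zero,
    det3_sq_of_orth e x y he hx hy, normsq_e_add e w₀ he hw] at h
  have hpos : (0 : ℝ) < 1 + ‖w₀‖ ^ 2 := by positivity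
  rw [eq_div_iff hpos.ne', mul_comm]
  exact h

theorem gram_pos_of_linearIndependent (a b : E3) (hab : LinearIndependent ℝ ![a, b]) :
    0 < gram a b := by
  rw [LinearIndependent.pair_iff] at hab
  rcases (gram_nonneg a b).lt_or_eq with h | h
  · exact h
  · exfalso
    have hb : b ≠ 0 := by
      intro hb
      have := (hab 0 1 (by simp [hb])).2
      exact one_ne_zero this
    have hbn : ‖b‖ ^ 2 ≠ 0 := by positivity
    have hz : ‖(‖b‖ ^ 2) • a + (-(inner ℝ a b)) • b‖ ^ 2 = ‖b‖ ^ 2 * gram a b := by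
      unfold gram
      simp only [inner3, normsq3, PiLp.add_apply, PiLp.smul_apply, smul_eq_mul]
      ring
    rw [← h, mul_zero] at hz
    have hz' : (‖b‖ ^ 2) • a + (-(inner ℝ a b)) • b = 0 := by
      rw [← norm_eq_zero]
      exact pow_eq_zero_iff (two_ne_zero) |>.mp hz
    exact hbn (hab _ _ hz').1

theorem affineIndependent_of_gram_ne_zero (p q r : E3) (h : gram (q - p) (r - p) ≠ 0) :
    AffineIndependent ℝ ![p, q, r] := by
  rw [affineIndependent_iff_not_collinear_set]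
  intro hcol
  rw [collinear_iff_of_mem (p₀ := p) (by simp)] at hcol
  obtain ⟨v, hv⟩ := hcol
  obtain ⟨r₁, hr₁⟩ := hv q (by simp)
  obtain ⟨r₂, hr₂⟩ := hv r (by simp)
  apply h
  have e1 : q - p = r₁ • v := by rw [hr₁]; simp
  have e2 : r - p = r₂ • v := by rw [hr₂]; simp
  rw [e1, e2]
  unfold gram
  simp only [inner3, normsq3, PiLp.smul_apply, smul_eq_mul]
  ring

end Crest.Agent.Helper6.Fan
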