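import Mathlib
import Crest.Agent.Helper6.FanAlg

/-!
Helper6, row 211 (S0328, fan lemma): geometry of one piece of the sweep.
-/

set_option autoImplicit false

namespace Crest.Agent.Helper6.Fan

open Set

theorem hasDeriv_coord (w : ℝ → E3) (w' : E3) (s : Set ℝ) (σ : ℝ) (i : Fin 3)
    (h : HasDerivWithinAt w w' s σ) : HasDerivWithinAt (fun x => w x i) (w' i) s σ := by
  exact (EuclideanSpace.proj (𝕜 := ℝ) i).hasFDerivAt.comp_hasDerivWithinAt σ h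

theorem hasDeriv_det_left (w : ℝ → E3) (w' : E3) (s : Set ℝ) (σ : ℝ) (b e : E3)
    (h : HasDerivWithinAt w w' s σ) :
    HasDerivWithinAt (fun x => det3 (w x) b e) (det3 w' b e) s σ := by
  have h0 := hasDeriv_coord w w' s σ 0 h
  have h1 := hasDeriv_coord w w' s σ 1 h
  have h2 := hasDeriv_coord w w' s σ 2 h
  unfold det3
  exact ((h0.mul_const _).sub (h1.mul_const _)).add (h2.mul_const _)

theorem hasDeriv_det_mid (w : ℝ → E3) (w' : E3) (s : Set ℝ) (σ : ℝ) (a e : E3)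
    (h : HasDerivWithinAt w w' s σ) :
    HasDerivWithinAt (fun x => det3 a (w x) e) (det3 a w' e) s σ := by
  have h0 := hasDeriv_coord w w' s σ 0 h
  have h1 := hasDeriv_coord w w' s σ 1 h
  have h2 := hasDeriv_coord w w' s σ 2 h
  unfold det3
  exact (((((h1.mul_const (e 2)).sub (h2.mul_const (e 1))).const_mul (a 0)).sub
    (((h0.mul_const (e 2)).sub (h2.mul_const (e 0))).const_mul (a 1))).add
    (((h0.mul_const (e 1)).sub (h1.mul_const (e 0))).const_mul (a 2)))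

/-- Coordinates in the basis `a + t₁ b`, `a + t₂ b` of `e^⊥`. -/
theorem coords_key (a b : E3) (D t₁ t₂ : ℝ) (hD : D ≠ 0) (hh : t₂ - t₁ ≠ 0) (A B : ℝ) :
    D⁻¹ • (A • a + B • b) = ((t₂ * A - B) / (D * (t₂ - t₁))) • (a + t₁ • b)
      + ((B - t₁ * A) / (D * (t₂ - t₁))) • (a + t₂ • b) := by
  ext i
  simp only [PiLp.add_apply, PiLp.smul_apply, smul_eq_mul]
  field_simp
  ring

/-- The drift of the direction field over one piece, in the basis `a + t₁ b`, `a + t₂ b`. -/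
theorem drift (e a b : E3) (he : ‖e‖ = 1) (ha : inner ℝ a e = 0) (hb : inner ℝ b e = 0)
    (hD : det3 a b e ≠ 0) (α β : ℝ) (w : ℝ → E3) (lam : ℝ → ℝ)
    (hw : ∀ t ∈ Icc α β, inner ℝ (w t) e = 0)
    (hw' : ∀ t ∈ Icc α β, HasDerivWithinAt w (lam t • (a + t • b)) (Icc α β) t)
    (Λ : ℝ) (hΛ : ∀ t ∈ Icc α β, |lam t| ≤ Λ) (t₁ t₂ : ℝ) (h12 : t₁ < t₂) (h1 : α ≤ t₁)
    (h2 : t₂ ≤ β) (c τ : ℝ) (hc : c ∈ Icc t₁ t₂) (hτ : τ ∈ Icc t₁ t₂) :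
    ∃ μ₁ μ₂ : ℝ, |μ₁| ≤ Λ * (t₂ - t₁) ∧ |μ₂| ≤ Λ * (t₂ - t₁) ∧
      w τ - w c = μ₁ • (a + t₁ • b) + μ₂ • (a + t₂ • b) := by
  set D := det3 a b e with hDdef
  have hh : 0 < t₂ - t₁ := by linarith
  have hsub : Icc t₁ t₂ ⊆ Icc α β := Icc_subset_Icc h1 h2
  set φA : ℝ → ℝ := fun σ => det3 (w σ) b e with hφA
  set φB : ℝ → ℝ := fun σ => det3 a (w σ) e with hφB
  have dA : ∀ σ ∈ Icc t₁ t₂, HasDerivWithinAt φA (lam σ * D) (Icc t₁ t₂) σ := by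
    intro σ hσ
    have h := (hasDeriv_det_left w _ _ σ b e (hw' σ (hsub hσ))).mono hsub
    have e1 : det3 (lam σ • (a + σ • b)) b e = lam σ * D := by
      rw [hDdef]; unfold det3
      simp only [PiLp.add_apply, PiLp.smul_apply, smul_eq_mul]
      ring
    rw [e1] at h
    exact h
  have dB : ∀ σ ∈ Icc t₁ t₂, HasDerivWithinAt φB (lam σ * σ * D) (Icc t₁ t₂) σ := by
    intro σ hσ
    have h := (hasDeriv_det_mid w _ _ σ a e (hw' σ (hsub hσ))).mono hsub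
    have e1 : det3 a (lam σ • (a + σ • b)) e = lam σ * σ * D := by
      rw [hDdef]; unfold det3
      simp only [PiLp.add_apply, PiLp.smul_apply, smul_eq_mul]
      ring
    rw [e1] at h
    exact h
  set M₁ : ℝ → ℝ := fun σ => (t₂ * φA σ - φB σ) / (D * (t₂ - t₁)) with hM₁
  set M₂ : ℝ → ℝ := fun σ => (φB σ - t₁ * φA σ) / (D * (t₂ - t₁)) with hM₂
  have dM₁ : ∀ σ ∈ Icc t₁ t₂,
      HasDerivWithinAt M₁ (lam σ * ((t₂ - σ) / (t₂ - t₁))) (Icc t₁ t₂) σ := by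
    intro σ hσ
    have h := (((dA σ hσ).const_mul t₂).sub (dB σ hσ)).div_const (D * (t₂ - t₁))
    have e1 : (t₂ * (lam σ * D) - lam σ * σ * D) / (D * (t₂ - t₁))
        = lam σ * ((t₂ - σ) / (t₂ - t₁)) := by
      field_simp
    rw [e1] at h
    exact h
  have dM₂ : ∀ σ ∈ Icc t₁ t₂,
      HasDerivWithinAt M₂ (lam σ * ((σ - t₁) / (t₂ - t₁))) (Icc t₁ t₂) σ := by
    intro σ hσ
    have h := ((dB σ hσ).sub ((dA σ hσ).const_mul t₁)).div_const (D * (t₂ - t₁))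
    have e1 : (lam σ * σ * D - t₁ * (lam σ * D)) / (D * (t₂ - t₁))
        = lam σ * ((σ - t₁) / (t₂ - t₁)) := by
      field_simp
    rw [e1] at h
    exact h
  have hΛ0 : 0 ≤ Λ := (abs_nonneg _).trans (hΛ t₁ (hsub ⟨le_rfl, h12.le⟩))
  have bound₁ : ∀ σ ∈ Icc t₁ t₂, ‖lam σ * ((t₂ - σ) / (t₂ - t₁))‖ ≤ Λ := by
    intro σ hσ
    rw [Real.norm_eq_abs, abs_mul]
    have h1 : |(t₂ - σ) / (t₂ - t₁)| ≤ 1 := by
      rw [abs_of_nonneg (div_nonneg (by linarith [hσ.2]) hh.le), div_le_one hh]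
      linarith [hσ.1]
    have h2 := hΛ σ (hsub hσ)
    calc |lam σ| * |(t₂ - σ) / (t₂ - t₁)| ≤ Λ * 1 :=
          mul_le_mul h2 h1 (abs_nonneg _) hΛ0
      _ = Λ := mul_one _
  have bound₂ : ∀ σ ∈ Icc t₁ t₂, ‖lam σ * ((σ - t₁) / (t₂ - t₁))‖ ≤ Λ := by
    intro σ hσ
    rw [Real.norm_eq_abs, abs_mul]
    have h1 : |(σ - t₁) / (t₂ - t₁)| ≤ 1 := by
      rw [abs_of_nonneg (div_nonneg (by linarith [hσ.1]) hh.le), div_le_one hh]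
      linarith [hσ.2]
    have h2 := hΛ σ (hsub hσ)
    calc |lam σ| * |(σ - t₁) / (t₂ - t₁)| ≤ Λ * 1 :=
          mul_le_mul h2 h1 (abs_nonneg _) hΛ0
      _ = Λ := mul_one _
  have mv₁ := Convex.norm_image_sub_le_of_norm_hasDerivWithin_le dM₁ bound₁
    (convex_Icc t₁ t₂) hc hτ
  have mv₂ := Convex.norm_image_sub_le_of_norm_hasDerivWithin_le dM₂ bound₂
    (convex_Icc t₁ t₂) hc hτ
  have hτc : ‖τ - c‖ ≤ t₂ - t₁ := by
    rw [Real.norm_eq_abs, abs_le]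
    constructor <;> linarith [hc.1, hc.2, hτ.1, hτ.2]
  refine ⟨M₁ τ - M₁ c, M₂ τ - M₂ c, ?_, ?_, ?_⟩
  · calc |M₁ τ - M₁ c| = ‖M₁ τ - M₁ c‖ := (Real.norm_eq_abs _).symm
      _ ≤ Λ * ‖τ - c‖ := mv₁
      _ ≤ Λ * (t₂ - t₁) := mul_le_mul_of_nonneg_left hτc hΛ0
  · calc |M₂ τ - M₂ c| = ‖M₂ τ - M₂ c‖ := (Real.norm_eq_abs _).symm
      _ ≤ Λ * ‖τ - c‖ := mv₂
      _ ≤ Λ * (t₂ - t₁) := mul_le_mul_of_nonneg_left hτc hΛ0
  · have hy : inner ℝ (w τ - w c) e = 0 := by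
      rw [inner_sub_left, hw τ (hsub hτ), hw c (hsub hc), sub_zero]
    have hdec := decomp e a b (w τ - w c) he ha hb hy
    have eA : det3 (w τ - w c) b e = φA τ - φA c := by
      rw [hφA]; unfold det3
      simp only [PiLp.sub_apply]
      ring
    have eB : det3 a (w τ - w c) e = φB τ - φB c := by
      rw [hφB]; unfold det3
      simp only [PiLp.sub_apply]
      ring
    rw [eA, eB] at hdec
    have e0 : w τ - w c = D⁻¹ • (D • (w τ - w c)) := by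
      rw [smul_smul, inv_mul_cancel₀ hD, one_smul]
    rw [e0, hdec, coords_key a b D t₁ t₂ hD hh.ne']
    have c1 : M₁ τ - M₁ c = (t₂ * (φA τ - φA c) - (φB τ - φB c)) / (D * (t₂ - t₁)) := by
      rw [hM₁]; field_simp; ring
    have c2 : M₂ τ - M₂ c = ((φB τ - φB c) - t₁ * (φA τ - φA c)) / (D * (t₂ - t₁)) := by
      rw [hM₂]; field_simp; ring
    rw [c1, c2]

/-- One piece (parameter range `[t₁, t₂]`) of the radial sweep. -/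
def piece (p₀ a b e : E3) (w : ℝ → E3) (R : ℝ → ℝ) (L t₁ t₂ : ℝ) : Set E3 :=
  {x | ∃ τ ∈ Set.Icc t₁ t₂, ∃ ρ ∈ Set.Icc 0 (R τ), ∃ s : ℝ, |s| ≤ L ∧
      x = p₀ + ρ • (a + τ • b) + s • (e + w τ)}

theorem tri_mem {P Q Rr : E3} (w₁ w₂ w₃ : ℝ) (h₁ : 0 ≤ w₁) (h₂ : 0 ≤ w₂) (h₃ : 0 ≤ w₃)
    (h : w₁ + w₂ + w₃ = 1) : w₁ • P + w₂ • Q + w₃ • Rr ∈ convexHull ℝ ({P, Q, Rr} : Set E3) := by
  have hc := convex_convexHull ℝ ({P, Q, Rr} : Set E3)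
  have hP : P ∈ convexHull ℝ ({P, Q, Rr} : Set E3) := subset_convexHull ℝ _ (by simp)
  have hQ : Q ∈ convexHull ℝ ({P, Q, Rr} : Set E3) := subset_convexHull ℝ _ (by simp)
  have hR : Rr ∈ convexHull ℝ ({P, Q, Rr} : Set E3) := subset_convexHull ℝ _ (by simp)
  have := hc.sum_mem (t := Finset.univ) (w := ![w₁, w₂, w₃]) (z := ![P, Q, Rr])
    (by intro i _; fin_cases i <;> simp [h₁, h₂, h₃])
    (by simp [Fin.sum_univ_three, h])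
    (by intro i _; fin_cases i <;> simp [hP, hQ, hR])
  simpa [Fin.sum_univ_three] using this

/-- Every point of a piece, moved along the tagged axis, lies in a flat triangle of `e^⊥`. -/
theorem cover_point (e a b p₀ : E3) (he : ‖e‖ = 1) (ha : inner ℝ a e = 0)
    (hb : inner ℝ b e = 0) (hD : det3 a b e ≠ 0) (α β : ℝ) (w : ℝ → E3) (lam : ℝ → ℝ)
    (hw : ∀ t ∈ Icc α β, inner ℝ (w t) e = 0)
    (hw' : ∀ t ∈ Icc α β, HasDerivWithinAt w (lam t • (a + t • b)) (Icc α β) t)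
    (Λ : ℝ) (hΛ : ∀ t ∈ Icc α β, |lam t| ≤ Λ) (L : ℝ) (R : ℝ → ℝ) (t₁ t₂ : ℝ)
    (h12 : t₁ < t₂) (h1 : α ≤ t₁) (h2 : t₂ ≤ β) (c : ℝ) (hc : c ∈ Icc t₁ t₂) (m H : ℝ)
    (hm : L * Λ * (t₂ - t₁) ≤ m) (hH : ∀ τ ∈ Icc t₁ t₂, R τ + 4 * m ≤ H) (x : E3)
    (hx : x ∈ piece p₀ a b e w R L t₁ t₂) :
    ∃ k₁ k₂ σ : ℝ, 0 ≤ k₁ ∧ 0 ≤ k₂ ∧ k₁ + k₂ ≤ H ∧
      x = (p₀ - m • ((a + t₁ • b) + (a + t₂ • b))) + k₁ • (a + t₁ • b) + k₂ • (a + t₂ • b)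
        + σ • (e + w c) := by
  obtain ⟨τ, hτ, ρ, hρ, s, hs, rfl⟩ := hx
  obtain ⟨μ₁, μ₂, hμ₁, hμ₂, hμ⟩ := drift e a b he ha hb hD α β w lam hw hw' Λ hΛ t₁ t₂ h12 h1 h2
    c τ hc hτ
  have hh : 0 < t₂ - t₁ := by linarith
  have hsub : Icc t₁ t₂ ⊆ Icc α β := Icc_subset_Icc h1 h2
  have hΛ0 : 0 ≤ Λ := (abs_nonneg _).trans (hΛ t₁ (hsub ⟨le_rfl, h12.le⟩))
  have hL0 : 0 ≤ L := (abs_nonneg _).trans hs
  set θ₁ : ℝ := (t₂ - τ) / (t₂ - t₁) with hθ₁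
  set θ₂ : ℝ := (τ - t₁) / (t₂ - t₁) with hθ₂
  have hθ₁0 : 0 ≤ θ₁ := div_nonneg (by linarith [hτ.2]) hh.le
  have hθ₂0 : 0 ≤ θ₂ := div_nonneg (by linarith [hτ.1]) hh.le
  have hθsum : θ₁ + θ₂ = 1 := by
    rw [hθ₁, hθ₂]; field_simp; ring
  have hsμ : ∀ μ : ℝ, |μ| ≤ Λ * (t₂ - t₁) → |s * μ| ≤ m := by
    intro μ hμ
    rw [abs_mul]
    calc |s| * |μ| ≤ L * (Λ * (t₂ - t₁)) := mul_le_mul hs hμ (abs_nonneg _) hL0
      _ = L * Λ * (t₂ - t₁) := by ring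
      _ ≤ m := hm
  have b1 := abs_le.mp (hsμ μ₁ hμ₁)
  have b2 := abs_le.mp (hsμ μ₂ hμ₂)
  have hρθ₁ : 0 ≤ ρ * θ₁ := mul_nonneg hρ.1 hθ₁0
  have hρθ₂ : 0 ≤ ρ * θ₂ := mul_nonneg hρ.1 hθ₂0
  refine ⟨ρ * θ₁ + s * μ₁ + m, ρ * θ₂ + s * μ₂ + m, s, by linarith [b1.1], by linarith [b2.1],
    ?_, ?_⟩
  · have e1 : ρ * θ₁ + s * μ₁ + m + (ρ * θ₂ + s * μ₂ + m) = ρ * (θ₁ + θ₂) + s * μ₁ + s * μ₂
        + 2 * m := by ring
    rw [e1, hθsum, mul_one]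
    have := hH τ hτ
    linarith [hρ.2, b1.2, b2.2]
  · have hwτ : w τ = w c + (μ₁ • (a + t₁ • b) + μ₂ • (a + t₂ • b)) := by
      rw [← hμ]; abel
    have hτθ : τ = θ₁ * t₁ + θ₂ * t₂ := by
      rw [hθ₁, hθ₂]; field_simp; ring
    rw [hwτ]
    have hθ₁' : θ₁ = 1 - θ₂ := by linarith
    ext i
    simp only [PiLp.add_apply, PiLp.sub_apply, PiLp.smul_apply, smul_eq_mul]
    rw [hθ₁'] at hτθ ⊢
    rw [hτθ]
    ring

/-- The projection of a piece along the tagged axis lies in the projected flat triangle. -/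
theorem proj_piece_subset (e a b p₀ : E3) (he : ‖e‖ = 1) (ha : inner ℝ a e = 0)
    (hb : inner ℝ b e = 0) (hD : det3 a b e ≠ 0) (α β : ℝ) (w : ℝ → E3) (lam : ℝ → ℝ)
    (hw : ∀ t ∈ Icc α β, inner ℝ (w t) e = 0)
    (hw' : ∀ t ∈ Icc α β, HasDerivWithinAt w (lam t • (a + t • b)) (Icc α β) t)
    (Λ : ℝ) (hΛ : ∀ t ∈ Icc α β, |lam t| ≤ Λ) (L : ℝ) (R : ℝ → ℝ) (t₁ t₂ : ℝ)
    (h12 : t₁ < t₂) (h1 : α ≤ t₁) (h2 : t₂ ≤ β) (c : ℝ) (hc : c ∈ Icc t₁ t₂) (m H : ℝ)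
    (hm : L * Λ * (t₂ - t₁) ≤ m) (hH : ∀ τ ∈ Icc t₁ t₂, R τ + 4 * m ≤ H) (hHpos : 0 < H) :
    proj (e + w c) '' piece p₀ a b e w R L t₁ t₂ ⊆
      convexHull ℝ {proj (e + w c) (p₀ - m • ((a + t₁ • b) + (a + t₂ • b))),
        proj (e + w c) ((p₀ - m • ((a + t₁ • b) + (a + t₂ • b))) + H • (a + t₁ • b)),
        proj (e + w c) ((p₀ - m • ((a + t₁ • b) + (a + t₂ • b))) + H • (a + t₂ • b))} := by
  rintro _ ⟨x, hx, rfl⟩
  obtain ⟨k₁, k₂, σ, hk₁, hk₂, hk, rfl⟩ := cover_point e a b p₀ he ha hb hD α β w lam hw hw' Λ hΛ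
    L R t₁ t₂ h12 h1 h2 c hc m H hm hH x hx
  have hsub : Icc t₁ t₂ ⊆ Icc α β := Icc_subset_Icc h1 h2
  have hd : e + w c ≠ 0 := e_add_ne_zero e (w c) he (hw c (hsub hc))
  set d := e + w c with hddef
  set A := p₀ - m • ((a + t₁ • b) + (a + t₂ • b)) with hA
  have e1 : proj d (A + k₁ • (a + t₁ • b) + k₂ • (a + t₂ • b) + σ • d)
      = (1 - k₁ / H - k₂ / H) • proj d A + (k₁ / H) • proj d (A + H • (a + t₁ • b))
        + (k₂ / H) • proj d (A + H • (a + t₂ • b)) := by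
    have h1 : k₁ / H * H = k₁ := by field_simp
    have h2 : k₂ / H * H = k₂ := by field_simp
    simp only [proj_add, proj_smul, proj_self d hd, smul_zero, add_zero]
    rw [smul_add (k₁ / H), smul_add (k₂ / H), smul_smul, smul_smul, h1, h2]
    module
  rw [e1]
  apply tri_mem
  · have : k₁ / H + k₂ / H ≤ 1 := by
      rw [← add_div, div_le_one hHpos]; exact hk
    linarith
  · positivity
  · positivity
  · ring

/-- The projection of a piece contains the projected triangle over a lower radius. -/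
theorem hull_subset_proj_piece (p₀ a b e : E3) (w : ℝ → E3) (R : ℝ → ℝ) (L : ℝ) (hL : 0 ≤ L)
    (t₁ t₂ : ℝ) (h12 : t₁ ≤ t₂) (r : ℝ) (hr0 : 0 ≤ r) (hr : ∀ τ ∈ Icc t₁ t₂, r ≤ R τ) (d : E3) :
    convexHull ℝ {proj d p₀, proj d (p₀ + r • (a + t₁ • b)), proj d (p₀ + r • (a + t₂ • b))} ⊆
      proj d '' piece p₀ a b e w R L t₁ t₂ := by
  set K : Set E3 := {y | ∃ k₁ k₂ : ℝ, 0 ≤ k₁ ∧ 0 ≤ k₂ ∧ k₁ + k₂ ≤ r ∧
    y = p₀ + k₁ • (a + t₁ • b) + k₂ • (a + t₂ • b)} with hK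
  have hKconv : Convex ℝ K := by
    rintro x ⟨k₁, k₂, hk₁, hk₂, hk, rfl⟩ y ⟨l₁, l₂, hl₁, hl₂, hl, rfl⟩ u v hu hv huv
    refine ⟨u * k₁ + v * l₁, u * k₂ + v * l₂, by positivity, by positivity, ?_, ?_⟩
    · have hv' : v = 1 - u := by linarith
      subst hv'
      nlinarith
    · have hv' : v = 1 - u := by linarith
      subst hv'
      module
  have hKsub : K ⊆ piece p₀ a b e w R L t₁ t₂ := by
    rintro y ⟨k₁, k₂, hk₁, hk₂, hk, rfl⟩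
    rcases (add_nonneg hk₁ hk₂).eq_or_lt with h0 | hpos
    · have hk₁0 : k₁ = 0 := by linarith
      have hk₂0 : k₂ = 0 := by linarith
      refine ⟨t₁, ⟨le_rfl, h12⟩, 0, ⟨le_rfl, hr0.trans (hr t₁ ⟨le_rfl, h12⟩)⟩, 0,
        by simpa using hL, ?_⟩
      rw [hk₁0, hk₂0]; simp
    · set τ := (k₁ * t₁ + k₂ * t₂) / (k₁ + k₂) with hτ
      have hτ1 : t₁ ≤ τ := by
        rw [hτ, le_div_iff₀ hpos]; nlinarith
      have hτ2 : τ ≤ t₂ := by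
        rw [hτ, div_le_iff₀ hpos]; nlinarith
      refine ⟨τ, ⟨hτ1, hτ2⟩, k₁ + k₂, ⟨hpos.le, hk.trans (hr τ ⟨hτ1, hτ2⟩)⟩, 0,
        by simpa using hL, ?_⟩
      have hmul : (k₁ + k₂) * τ = k₁ * t₁ + k₂ * t₂ := by
        rw [hτ]; field_simp
      rw [zero_smul, add_zero, smul_add (k₁ + k₂), smul_smul, hmul]
      module
  have hconv : Convex ℝ (proj d '' K) := hKconv.is_linear_image (proj_isLinear d)
  have hverts : ({proj d p₀, proj d (p₀ + r • (a + t₁ • b)),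
      proj d (p₀ + r • (a + t₂ • b))} : Set E3) ⊆ proj d '' K := by
    intro y hy
    simp only [mem_insert_iff, mem_singleton_iff] at hy
    rcases hy with rfl | rfl | rfl
    · exact ⟨p₀, ⟨0, 0, le_rfl, le_rfl, by simpa using hr0, by simp⟩, rfl⟩
    · exact ⟨_, ⟨r, 0, hr0, le_rfl, by simp, by simp⟩, rfl⟩
    · exact ⟨_, ⟨0, r, le_rfl, hr0, by simp, by simp⟩, rfl⟩
  exact (convexHull_min hverts hconv).trans (image_mono hKsub)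

/-- Gram determinant of the two sides of a projected flat triangle. -/
theorem gram_tri (e a b : E3) (he : ‖e‖ = 1) (ha : inner ℝ a e = 0) (hb : inner ℝ b e = 0)
    (w₀ : E3) (hw₀ : inner ℝ w₀ e = 0) (B₀ : E3) (ρ₀ t₁ t₂ : ℝ) :
    gram (proj (e + w₀) (B₀ + ρ₀ • (a + t₁ • b)) - proj (e + w₀) B₀)
      (proj (e + w₀) (B₀ + ρ₀ • (a + t₂ • b)) - proj (e + w₀) B₀)
      = ρ₀ ^ 4 * ((t₂ - t₁) ^ 2 * gram a b / (1 + ‖w₀‖ ^ 2)) := by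
  have e1 : proj (e + w₀) (B₀ + ρ₀ • (a + t₁ • b)) - proj (e + w₀) B₀
      = ρ₀ • proj (e + w₀) (a + t₁ • b) := by
    rw [proj_add, proj_smul]; abel
  have e2 : proj (e + w₀) (B₀ + ρ₀ • (a + t₂ • b)) - proj (e + w₀) B₀
      = ρ₀ • proj (e + w₀) (a + t₂ • b) := by
    rw [proj_add, proj_smul]; abel
  have hg₁ : inner ℝ (a + t₁ • b) e = 0 := by
    rw [inner_add_left, inner_smul_left, ha, hb]; simp
  have hg₂ : inner ℝ (a + t₂ • b) e = 0 := by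
    rw [inner_add_left, inner_smul_left, ha, hb]; simp
  rw [e1, e2, gram_smul, gram_proj e w₀ _ _ he hg₁ hg₂ hw₀, gram_line]

open MeasureTheory in
/-- Area of a projected flat triangle with apex `B₀` and sides `ρ₀ (a + t₁ b)`, `ρ₀ (a + t₂ b)`. -/
theorem area_tri
    (hT : ∀ p q r : E3, μHE[2] (convexHull ℝ ({p, q, r} : Set E3))
      = ENNReal.ofReal (Real.sqrt (gram (q - p) (r - p)) / 2))
    (e a b : E3) (he : ‖e‖ = 1) (ha : inner ℝ a e = 0) (hb : inner ℝ b e = 0) (w₀ : E3)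
    (hw₀ : inner ℝ w₀ e = 0) (B₀ : E3) (ρ₀ t₁ t₂ : ℝ) (h12 : t₁ ≤ t₂) :
    μHE[2] (convexHull ℝ ({proj (e + w₀) B₀, proj (e + w₀) (B₀ + ρ₀ • (a + t₁ • b)),
        proj (e + w₀) (B₀ + ρ₀ • (a + t₂ • b))} : Set E3)) =
      ENNReal.ofReal (Real.sqrt (gram a b) *
        ((ρ₀ ^ 2 / (2 * Real.sqrt (1 + ‖w₀‖ ^ 2))) * (t₂ - t₁))) := by
  rw [hT, gram_tri e a b he ha hb w₀ hw₀]
  congr 1
  have hW : (0 : ℝ) < 1 + ‖w₀‖ ^ 2 := by positivity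
  have e3 : ρ₀ ^ 4 * ((t₂ - t₁) ^ 2 * gram a b / (1 + ‖w₀‖ ^ 2))
      = (ρ₀ ^ 2 * (t₂ - t₁)) ^ 2 * (gram a b / (1 + ‖w₀‖ ^ 2)) := by ring
  have h0 : 0 ≤ ρ₀ ^ 2 * (t₂ - t₁) := mul_nonneg (sq_nonneg _) (by linarith)
  rw [e3, Real.sqrt_mul (sq_nonneg _), Real.sqrt_sq h0, Real.sqrt_div (gram_nonneg a b)]
  have hsq : 0 < Real.sqrt (1 + ‖w₀‖ ^ 2) := Real.sqrt_pos.mpr hW
  field_simp

end Crest.Agent.Helper6.Fan
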