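import Mathlib

/-!
Helper6, row 211 (S0328, fan lemma): Riemann sums over a tagged partition indexed by `Fin`.
-/

set_option autoImplicit false

namespace Crest.Agent.Helper6.Fan

open Set

theorem piece_bound (f : ℝ → ℝ) (u v : ℝ) (huv : u ≤ v) (hf : ContinuousOn f (Icc u v))
    (F E : ℝ) (hE : ∀ τ ∈ Icc u v, |F - f τ| ≤ E) :
    |F * (v - u) - ∫ τ in u..v, f τ| ≤ E * (v - u) := by
  have hint : IntervalIntegrable f MeasureTheory.volume u v :=
    hf.intervalIntegrable_of_Icc huv
  have e1 : ∫ τ in u..v, (F - f τ) = F * (v - u) - ∫ τ in u..v, f τ := by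
    rw [intervalIntegral.integral_sub intervalIntegrable_const hint,
      intervalIntegral.integral_const, smul_eq_mul, mul_comm]
  rw [← e1]
  have h := intervalIntegral.norm_integral_le_of_norm_le_const (a := u) (b := v) (C := E)
    (f := fun τ => F - f τ) (by
      intro x hx
      rw [uIoc_of_le huv] at hx
      exact hE x ⟨hx.1.le, hx.2⟩)
  rw [Real.norm_eq_abs, abs_of_nonneg (by linarith : 0 ≤ v - u)] at h
  exact h

theorem riemann_bound (f : ℝ → ℝ) : ∀ (N : ℕ) (t : Fin (N + 1) → ℝ), Monotone t →
    ContinuousOn f (Icc (t 0) (t (Fin.last N))) → ∀ (F : Fin N → ℝ) (E : ℝ),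
    (∀ i : Fin N, ∀ τ ∈ Icc (t i.castSucc) (t i.succ), |F i - f τ| ≤ E) →
    |∑ i, F i * (t i.succ - t i.castSucc) - ∫ τ in (t 0)..(t (Fin.last N)), f τ|
      ≤ E * (t (Fin.last N) - t 0) := by
  intro N
  induction N with
  | zero =>
    intro t _ _ F E _
    simp
  | succ N ih =>
    intro t hmono hf F E hE
    set t' : Fin (N + 1) → ℝ := fun j => t j.castSucc with ht'
    have hmono' : Monotone t' := fun i j hij => hmono (Fin.castSucc_le_castSucc_iff.mpr hij)
    have hu0 : t 0 ≤ t (Fin.last N).castSucc := hmono (Fin.zero_le _)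
    have huv : t (Fin.last N).castSucc ≤ t (Fin.last (N + 1)) := hmono (Fin.le_last _)
    have hf1 : ContinuousOn f (Icc (t' 0) (t' (Fin.last N))) := by
      apply hf.mono
      apply Icc_subset_Icc
      · simp [ht']
      · exact huv
    have hf2 : ContinuousOn f (Icc (t (Fin.last N).castSucc) (t (Fin.last (N + 1)))) := by
      apply hf.mono
      exact Icc_subset_Icc hu0 le_rfl
    have h1 := ih t' hmono' hf1 (fun i => F i.castSucc) E (by
      intro i τ hτ
      apply hE i.castSucc τ
      simpa [ht'] using hτ)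
    have h2 := piece_bound f _ _ huv hf2 (F (Fin.last N)) E (by
      intro τ hτ
      apply hE (Fin.last N) τ
      simpa using hτ)
    have hint1 : IntervalIntegrable f MeasureTheory.volume (t 0) (t (Fin.last N).castSucc) := by
      have : ContinuousOn f (Icc (t 0) (t (Fin.last N).castSucc)) := by
        apply hf.mono
        exact Icc_subset_Icc le_rfl huv
      exact this.intervalIntegrable_of_Icc hu0
    have hint2 : IntervalIntegrable f MeasureTheory.volume (t (Fin.last N).castSucc)
        (t (Fin.last (N + 1))) := hf2.intervalIntegrable_of_Icc huv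
    have hsplit := intervalIntegral.integral_add_adjacent_intervals hint1 hint2
    rw [Fin.sum_univ_castSucc]
    have e0 : t' 0 = t 0 := by simp [ht']
    have e1 : t' (Fin.last N) = t (Fin.last N).castSucc := rfl
    have e2 : ∀ i : Fin N, t' i.succ = t i.castSucc.succ := by
      intro i; simp [ht']
    have e3 : ∀ i : Fin N, t' i.castSucc = t i.castSucc.castSucc := by
      intro i; rfl
    simp only [e0, e1, e2, e3] at h1
    rw [Fin.succ_last, ← hsplit]
    have habs := abs_add_le
      (∑ i : Fin N, F i.castSucc * (t i.castSucc.succ - t i.castSucc.castSucc)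
        - ∫ τ in (t 0)..(t (Fin.last N).castSucc), f τ)
      (F (Fin.last N) * (t (Fin.last (N + 1)) - t (Fin.last N).castSucc)
        - ∫ τ in (t (Fin.last N).castSucc)..(t (Fin.last (N + 1))), f τ)
    have e4 : (∑ i : Fin N, F i.castSucc * (t i.castSucc.succ - t i.castSucc.castSucc)
        + F (Fin.last N) * (t (Fin.last (N + 1)) - t (Fin.last N).castSucc))
        - ((∫ τ in (t 0)..(t (Fin.last N).castSucc), f τ)
          + ∫ τ in (t (Fin.last N).castSucc)..(t (Fin.last (N + 1))), f τ)
        = (∑ i : Fin N, F i.castSucc * (t i.castSucc.succ - t i.castSucc.castSucc)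
        - ∫ τ in (t 0)..(t (Fin.last N).castSucc), f τ)
        + (F (Fin.last N) * (t (Fin.last (N + 1)) - t (Fin.last N).castSucc)
        - ∫ τ in (t (Fin.last N).castSucc)..(t (Fin.last (N + 1))), f τ) := by ring
    rw [e4]
    linarith

theorem exists_piece : ∀ (N : ℕ) (t : Fin (N + 2) → ℝ) (τ : ℝ), t 0 ≤ τ →
    τ ≤ t (Fin.last (N + 1)) → ∃ i : Fin (N + 1), t i.castSucc ≤ τ ∧ τ ≤ t i.succ := by
  intro N
  induction N with
  | zero =>
    intro t τ h0 h1
    exact ⟨0, by simpa using h0, by simpa using h1⟩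
  | succ N ih =>
    intro t τ h0 h1
    by_cases h : τ ≤ t (Fin.last (N + 1)).castSucc
    · obtain ⟨i, hi1, hi2⟩ := ih (fun j => t j.castSucc) τ (by simpa using h0) h
      exact ⟨i.castSucc, hi1, by simpa using hi2⟩
    · refine ⟨Fin.last (N + 1), (not_le.mp h).le, ?_⟩
      simpa using h1

end Crest.Agent.Helper6.Fan
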