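import Mathlib
import Crest.Agent.Helper6.FanAlg
import Crest.Agent.Helper6.FanGeom
import Crest.Agent.Helper6.FanSum

/-!
Helper6, row 211 (S0328, fan lemma): the main theorem, modulo the area formula for triangles
(`hT`), which is supplied in `Crest/Agent/S0328.lean`.
-/

set_option autoImplicit false

namespace Crest.Agent.Helper6.Fan

open Set MeasureTheory

theorem unifCont (g : ℝ → ℝ) (α β : ℝ) (hg : ContinuousOn g (Icc α β)) (ε : ℝ) (hε : 0 < ε) :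
    ∃ δ : ℝ, 0 < δ ∧ ∀ x ∈ Icc α β, ∀ y ∈ Icc α β, |x - y| < δ → |g x - g y| < ε := by
  obtain ⟨δ, hδ, h⟩ := Metric.uniformContinuousOn_iff.mp
    (isCompact_Icc.uniformContinuousOn_of_continuous hg) ε hε
  refine ⟨δ, hδ, fun x hx y hy hxy => ?_⟩
  have := h x hx y hy (by rwa [Real.dist_eq])
  rwa [Real.dist_eq] at this

theorem Fplus_bound (Rc s ε₁ Rm : ℝ) (hs : 1 ≤ s) (hR0 : 0 ≤ Rc) (hRm : Rc ≤ Rm)
    (hε : 0 < ε₁) (hε1 : ε₁ ≤ 1) :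
    0 ≤ (Rc + 2 * ε₁) ^ 2 / (2 * s) - Rc ^ 2 / (2 * s) ∧
      (Rc + 2 * ε₁) ^ 2 / (2 * s) - Rc ^ 2 / (2 * s) ≤ 2 * ε₁ * (Rm + 1) := by
  have hs0 : 0 < 2 * s := by linarith
  rw [← sub_div]
  have e1 : (Rc + 2 * ε₁) ^ 2 - Rc ^ 2 = 4 * ε₁ * (Rc + ε₁) := by ring
  rw [e1]
  constructor
  · apply div_nonneg _ hs0.le
    have : 0 ≤ ε₁ * (Rc + ε₁) := mul_nonneg hε.le (by linarith)
    linarith
  · rw [div_le_iff₀ hs0]
    have h1 : Rc + ε₁ ≤ Rm + 1 := by linarith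
    have h2 : 0 ≤ Rm + 1 := by linarith
    have h3 : ε₁ * (Rc + ε₁) ≤ ε₁ * (Rm + 1) := mul_le_mul_of_nonneg_left h1 hε.le
    have h4 : 0 ≤ ε₁ * (Rm + 1) * (s - 1) :=
      mul_nonneg (mul_nonneg hε.le h2) (by linarith)
    nlinarith

theorem Fminus_bound (Rc s ε₁ Rm : ℝ) (hs : 1 ≤ s) (hR0 : 0 ≤ Rc) (hRm : Rc ≤ Rm)
    (hε : 0 < ε₁) :
    0 ≤ Rc ^ 2 / (2 * s) - (max (Rc - ε₁) 0) ^ 2 / (2 * s) ∧
      Rc ^ 2 / (2 * s) - (max (Rc - ε₁) 0) ^ 2 / (2 * s) ≤ ε₁ * Rm := by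
  have hs0 : 0 < 2 * s := by linarith
  have hRm0 : 0 ≤ Rm := hR0.trans hRm
  rw [← sub_div]
  have h4 : 0 ≤ ε₁ * Rm * (s - 1) := mul_nonneg (mul_nonneg hε.le hRm0) (by linarith)
  have h5 : ε₁ * Rc ≤ ε₁ * Rm := mul_le_mul_of_nonneg_left hRm hε.le
  rcases le_total (Rc - ε₁) 0 with h | h
  · rw [max_eq_right h]
    constructor
    · apply div_nonneg _ hs0.le
      nlinarith
    · rw [div_le_iff₀ hs0]
      have h6 : Rc * Rc ≤ ε₁ * Rc := mul_le_mul_of_nonneg_right (by linarith) hR0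
      nlinarith
  · rw [max_eq_left h]
    constructor
    · apply div_nonneg _ hs0.le
      nlinarith
    · rw [div_le_iff₀ hs0]
      nlinarith

/-- Apex of the flat covering triangle of a piece. -/
noncomputable def vA (p₀ a b : E3) (m t₁ t₂ : ℝ) : E3 :=
  p₀ - m • ((a + t₁ • b) + (a + t₂ • b))

/-- First vertex of the base triangle. -/
noncomputable def vP (e p₀ a b wc : E3) (m t₁ t₂ : ℝ) : E3 :=
  proj (e + wc) (vA p₀ a b m t₁ t₂)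

/-- Second vertex of the base triangle. -/
noncomputable def vQ (e p₀ a b wc : E3) (m H t₁ t₂ : ℝ) : E3 :=
  proj (e + wc) (vA p₀ a b m t₁ t₂ + H • (a + t₁ • b))

/-- Third vertex of the base triangle. -/
noncomputable def vR (e p₀ a b wc : E3) (m H t₁ t₂ : ℝ) : E3 :=
  proj (e + wc) (vA p₀ a b m t₁ t₂ + H • (a + t₂ • b))

/-- The integrand. -/
noncomputable def Fv (ρ : ℝ) (wc : E3) : ℝ := ρ ^ 2 / (2 * Real.sqrt (1 + ‖wc‖ ^ 2))

theorem piece_facts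
    (hT : ∀ p q r : E3, μHE[2] (convexHull ℝ ({p, q, r} : Set E3))
      = ENNReal.ofReal (Real.sqrt (gram (q - p) (r - p)) / 2))
    (e a b p₀ : E3) (he : ‖e‖ = 1) (ha : inner ℝ a e = 0) (hb : inner ℝ b e = 0)
    (hG : 0 < gram a b) (hD : det3 a b e ≠ 0) (L : ℝ) (hL : 0 < L) (α β : ℝ)
    (R : ℝ → ℝ) (hR0 : ∀ t ∈ Icc α β, 0 ≤ R t)
    (w : ℝ → E3) (hw : ∀ t ∈ Icc α β, inner ℝ (w t) e = 0) (lam : ℝ → ℝ)
    (hw' : ∀ t ∈ Icc α β, HasDerivWithinAt w (lam t • (a + t • b)) (Icc α β) t)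
    (Λ : ℝ) (hΛ : ∀ t ∈ Icc α β, |lam t| ≤ Λ) (Rm : ℝ) (hRm : ∀ t ∈ Icc α β, R t ≤ Rm)
    (ε₁ : ℝ) (hε₁ : 0 < ε₁) (hε₁1 : ε₁ ≤ 1) (δ : ℝ)
    (hδR : ∀ x ∈ Icc α β, ∀ y ∈ Icc α β, |x - y| ≤ δ → |R x - R y| ≤ ε₁)
    (hδf : ∀ x ∈ Icc α β, ∀ y ∈ Icc α β, |x - y| ≤ δ →
      |Fv (R x) (w x) - Fv (R y) (w y)| ≤ ε₁)
    (hδ3 : L * Λ * δ ≤ ε₁ / 4)
    (t₁ t₂ c : ℝ) (h12 : t₁ < t₂) (h1 : α ≤ t₁) (h2 : t₂ ≤ β) (hmesh : t₂ - t₁ ≤ δ)
    (hc : c ∈ Icc t₁ t₂) :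
    (inner ℝ (vP e p₀ a b (w c) (ε₁ / 4) t₁ t₂) (e + w c) = 0 ∧
      inner ℝ (vQ e p₀ a b (w c) (ε₁ / 4) (R c + 2 * ε₁) t₁ t₂) (e + w c) = 0 ∧
      inner ℝ (vR e p₀ a b (w c) (ε₁ / 4) (R c + 2 * ε₁) t₁ t₂) (e + w c) = 0) ∧
    AffineIndependent ℝ ![vP e p₀ a b (w c) (ε₁ / 4) t₁ t₂,
      vQ e p₀ a b (w c) (ε₁ / 4) (R c + 2 * ε₁) t₁ t₂,
      vR e p₀ a b (w c) (ε₁ / 4) (R c + 2 * ε₁) t₁ t₂] ∧
    proj (e + w c) '' piece p₀ a b e w R L t₁ t₂ ⊆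
      convexHull ℝ {vP e p₀ a b (w c) (ε₁ / 4) t₁ t₂,
        vQ e p₀ a b (w c) (ε₁ / 4) (R c + 2 * ε₁) t₁ t₂,
        vR e p₀ a b (w c) (ε₁ / 4) (R c + 2 * ε₁) t₁ t₂} ∧
    (μHE[2] (convexHull ℝ ({vP e p₀ a b (w c) (ε₁ / 4) t₁ t₂,
        vQ e p₀ a b (w c) (ε₁ / 4) (R c + 2 * ε₁) t₁ t₂,
        vR e p₀ a b (w c) (ε₁ / 4) (R c + 2 * ε₁) t₁ t₂} : Set E3))).toReal
      = Real.sqrt (gram a b) * (Fv (R c + 2 * ε₁) (w c) * (t₂ - t₁)) ∧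
    Real.sqrt (gram a b) * (Fv (max (R c - ε₁) 0) (w c) * (t₂ - t₁)) ≤
      (μHE[2] (proj (e + w c) '' piece p₀ a b e w R L t₁ t₂)).toReal ∧
    (μHE[2] (proj (e + w c) '' piece p₀ a b e w R L t₁ t₂)).toReal ≤
      Real.sqrt (gram a b) * (Fv (R c + 2 * ε₁) (w c) * (t₂ - t₁)) ∧
    (∀ τ ∈ Icc t₁ t₂, |Fv (R c + 2 * ε₁) (w c) - Fv (R τ) (w τ)| ≤ ε₁ * (2 * Rm + 3)) ∧
    (∀ τ ∈ Icc t₁ t₂, |Fv (max (R c - ε₁) 0) (w c) - Fv (R τ) (w τ)| ≤ ε₁ * (2 * Rm + 3)) := by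
  have hsub : Icc t₁ t₂ ⊆ Icc α β := Icc_subset_Icc h1 h2
  have hcI : c ∈ Icc α β := hsub hc
  have hwc : inner ℝ (w c) e = 0 := hw c hcI
  have hd : e + w c ≠ 0 := e_add_ne_zero e (w c) he hwc
  have hRc0 : 0 ≤ R c := hR0 c hcI
  have hH : 0 < R c + 2 * ε₁ := by linarith
  have hΛ0 : 0 ≤ Λ := (abs_nonneg _).trans (hΛ c hcI)
  have hclose : ∀ τ ∈ Icc t₁ t₂, |τ - c| ≤ δ := by
    intro τ hτ
    rw [abs_le]
    constructor <;> linarith [hc.1, hc.2, hτ.1, hτ.2]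
  have hm : L * Λ * (t₂ - t₁) ≤ ε₁ / 4 := by
    have : L * Λ * (t₂ - t₁) ≤ L * Λ * δ :=
      mul_le_mul_of_nonneg_left hmesh (mul_nonneg hL.le hΛ0)
    linarith
  have hHb : ∀ τ ∈ Icc t₁ t₂, R τ + 4 * (ε₁ / 4) ≤ R c + 2 * ε₁ := by
    intro τ hτ
    have := abs_le.mp (hδR τ (hsub hτ) c hcI (hclose τ hτ))
    linarith [this.2]
  have hrr0 : 0 ≤ max (R c - ε₁) 0 := le_max_right _ _
  have hrr : ∀ τ ∈ Icc t₁ t₂, max (R c - ε₁) 0 ≤ R τ := by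
    intro τ hτ
    have := abs_le.mp (hδR τ (hsub hτ) c hcI (hclose τ hτ))
    exact max_le (by linarith [this.1]) (hR0 τ (hsub hτ))
  have hupper : proj (e + w c) '' piece p₀ a b e w R L t₁ t₂ ⊆
      convexHull ℝ {vP e p₀ a b (w c) (ε₁ / 4) t₁ t₂,
        vQ e p₀ a b (w c) (ε₁ / 4) (R c + 2 * ε₁) t₁ t₂,
        vR e p₀ a b (w c) (ε₁ / 4) (R c + 2 * ε₁) t₁ t₂} :=
    proj_piece_subset e a b p₀ he ha hb hD α β w lam hw hw' Λ hΛ L R t₁ t₂ h12 h1 h2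
      c hc (ε₁ / 4) (R c + 2 * ε₁) hm hHb hH
  have hlower := hull_subset_proj_piece p₀ a b e w R L hL.le t₁ t₂ h12.le (max (R c - ε₁) 0) hrr0
    hrr (e + w c)
  have hareaU : μHE[2] (convexHull ℝ ({vP e p₀ a b (w c) (ε₁ / 4) t₁ t₂,
        vQ e p₀ a b (w c) (ε₁ / 4) (R c + 2 * ε₁) t₁ t₂,
        vR e p₀ a b (w c) (ε₁ / 4) (R c + 2 * ε₁) t₁ t₂} : Set E3))
      = ENNReal.ofReal (Real.sqrt (gram a b) * (Fv (R c + 2 * ε₁) (w c) * (t₂ - t₁))) :=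
    area_tri hT e a b he ha hb (w c) hwc (vA p₀ a b (ε₁ / 4) t₁ t₂) (R c + 2 * ε₁)
      t₁ t₂ h12.le
  have hareaL : μHE[2] (convexHull ℝ ({proj (e + w c) p₀,
        proj (e + w c) (p₀ + max (R c - ε₁) 0 • (a + t₁ • b)),
        proj (e + w c) (p₀ + max (R c - ε₁) 0 • (a + t₂ • b))} : Set E3))
      = ENNReal.ofReal (Real.sqrt (gram a b) * (Fv (max (R c - ε₁) 0) (w c) * (t₂ - t₁))) :=
    area_tri hT e a b he ha hb (w c) hwc p₀ (max (R c - ε₁) 0) t₁ t₂ h12.le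
  have hκ : 0 ≤ Real.sqrt (gram a b) := Real.sqrt_nonneg _
  have hs1 : 1 ≤ Real.sqrt (1 + ‖w c‖ ^ 2) := by
    rw [Real.one_le_sqrt]
    nlinarith [sq_nonneg ‖w c‖]
  have hFU0 : 0 ≤ Fv (R c + 2 * ε₁) (w c) := by
    unfold Fv; positivity
  have hFL0 : 0 ≤ Fv (max (R c - ε₁) 0) (w c) := by
    unfold Fv; positivity
  have hvalU : 0 ≤ Real.sqrt (gram a b) * (Fv (R c + 2 * ε₁) (w c) * (t₂ - t₁)) :=
    mul_nonneg hκ (mul_nonneg hFU0 (by linarith))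
  have hvalL : 0 ≤ Real.sqrt (gram a b) * (Fv (max (R c - ε₁) 0) (w c) * (t₂ - t₁)) :=
    mul_nonneg hκ (mul_nonneg hFL0 (by linarith))
  refine ⟨⟨inner_proj _ _ hd, inner_proj _ _ hd, inner_proj _ _ hd⟩, ?_, hupper, ?_, ?_, ?_, ?_, ?_⟩
  · apply affineIndependent_of_gram_ne_zero
    unfold vP vQ vR
    rw [gram_tri e a b he ha hb (w c) hwc]
    have hW : (0 : ℝ) < 1 + ‖w c‖ ^ 2 := by positivity
    have h3 : 0 < (t₂ - t₁) ^ 2 := by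
      have : 0 < t₂ - t₁ := by linarith
      positivity
    have : 0 < (R c + 2 * ε₁) ^ 4 * ((t₂ - t₁) ^ 2 * gram a b / (1 + ‖w c‖ ^ 2)) := by
      positivity
    exact this.ne'
  · rw [hareaU]
    exact ENNReal.toReal_ofReal hvalU
  · have h := measure_mono (μ := μHE[2]) hlower
    rw [hareaL] at h
    have hfin : μHE[2] (proj (e + w c) '' piece p₀ a b e w R L t₁ t₂) ≠ ⊤ := by
      have h' := measure_mono (μ := μHE[2]) hupper
      rw [hareaU] at h'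
      exact ne_top_of_le_ne_top ENNReal.ofReal_ne_top h'
    have := ENNReal.toReal_mono hfin h
    rwa [ENNReal.toReal_ofReal hvalL] at this
  · have h' := measure_mono (μ := μHE[2]) hupper
    rw [hareaU] at h'
    have := ENNReal.toReal_mono ENNReal.ofReal_ne_top h'
    rwa [ENNReal.toReal_ofReal hvalU] at this
  · intro τ hτ
    have hf := abs_le.mp (hδf c hcI τ (hsub hτ) (by rw [abs_sub_comm]; exact hclose τ hτ))
    have hb1 := Fplus_bound (R c) (Real.sqrt (1 + ‖w c‖ ^ 2)) ε₁ Rm hs1 hRc0 (hRm c hcI) hε₁ hε₁1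
    have hRm0 : 0 ≤ Rm := hRc0.trans (hRm c hcI)
    unfold Fv at hf ⊢
    rw [abs_le]
    constructor <;> nlinarith [hb1.1, hb1.2, hf.1, hf.2, mul_nonneg hε₁.le hRm0]
  · intro τ hτ
    have hf := abs_le.mp (hδf c hcI τ (hsub hτ) (by rw [abs_sub_comm]; exact hclose τ hτ))
    have hb1 := Fminus_bound (R c) (Real.sqrt (1 + ‖w c‖ ^ 2)) ε₁ Rm hs1 hRc0 (hRm c hcI) hε₁
    have hRm0 : 0 ≤ Rm := hRc0.trans (hRm c hcI)
    unfold Fv at hf ⊢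
    rw [abs_le]
    constructor <;> nlinarith [hb1.1, hb1.2, hf.1, hf.2, mul_nonneg hε₁.le hRm0]

/-- The fan lemma (statement S0328), modulo the area formula `hT` for triangles. -/
theorem fan_main
    (hT : ∀ p q r : E3, μHE[2] (convexHull ℝ ({p, q, r} : Set E3))
      = ENNReal.ofReal (Real.sqrt (gram (q - p) (r - p)) / 2))
    (e a b p₀ : E3) (he : ‖e‖ = 1)
    (ha : inner ℝ a e = 0) (hb : inner ℝ b e = 0)
    (hab : LinearIndependent ℝ ![a, b]) (L : ℝ) (hL : 0 < L) (α β : ℝ) (hαβ : α < β)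
    (R : ℝ → ℝ) (hR : ContinuousOn R (Set.Icc α β)) (hR0 : ∀ t ∈ Set.Icc α β, 0 ≤ R t)
    (w : ℝ → E3) (hw : ∀ t ∈ Set.Icc α β, inner ℝ (w t) e = 0)
    (lam : ℝ → ℝ) (hlam : ContinuousOn lam (Set.Icc α β))
    (hw' : ∀ t ∈ Set.Icc α β, HasDerivWithinAt w (lam t • (a + t • b)) (Set.Icc α β) t)
    (η : ℝ) (hη : 0 < η) :
    ∃ δ : ℝ, 0 < δ ∧ ∀ (N : ℕ) (t : Fin (N + 1) → ℝ) (c : Fin N → ℝ),
      StrictMono t → t 0 = α → t (Fin.last N) = β →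
      (∀ i : Fin N, t i.succ - t i.castSucc ≤ δ) →
      (∀ i : Fin N, t i.castSucc ≤ c i ∧ c i ≤ t i.succ) →
      (∃ (p q r : Fin N → E3),
        (∀ i, inner ℝ (p i) (e + w (c i)) = 0 ∧ inner ℝ (q i) (e + w (c i)) = 0 ∧
          inner ℝ (r i) (e + w (c i)) = 0) ∧
        (∀ i, AffineIndependent ℝ ![p i, q i, r i]) ∧
        piece p₀ a b e w R L α β ⊆
          ⋃ i, {x : E3 | ∃ y ∈ convexHull ℝ {p i, q i, r i}, ∃ σ : ℝ,
            x = y + σ • (e + w (c i))} ∧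
        |(∑ i, (μHE[2] (convexHull ℝ ({p i, q i, r i} : Set E3))).toReal) -
            Real.sqrt (gram a b) * ∫ τ in α..β, Fv (R τ) (w τ)| ≤ η) ∧
      |(∑ i : Fin N, (μHE[2] (proj (e + w (c i)) ''
            piece p₀ a b e w R L (t i.castSucc) (t i.succ))).toReal) -
          Real.sqrt (gram a b) * ∫ τ in α..β, Fv (R τ) (w τ)| ≤ η := by
  have hG : 0 < gram a b := gram_pos_of_linearIndependent a b hab
  have hD : det3 a b e ≠ 0 := by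
    intro h
    have := det3_sq_of_orth e a b he ha hb
    rw [h] at this
    nlinarith
  set κ := Real.sqrt (gram a b) with hκdef
  have hκ : 0 < κ := Real.sqrt_pos.mpr hG
  have hwc : ContinuousOn w (Icc α β) := fun x hx => (hw' x hx).continuousWithinAt
  have hfc : ContinuousOn (fun τ => Fv (R τ) (w τ)) (Icc α β) := by
    unfold Fv
    apply ContinuousOn.div (hR.pow 2)
    · exact continuousOn_const.mul (Real.continuous_sqrt.comp_continuousOn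
        (continuousOn_const.add (hwc.norm.pow 2)))
    · intro x _
      have : 0 < Real.sqrt (1 + ‖w x‖ ^ 2) := Real.sqrt_pos.mpr (by positivity)
      positivity
  obtain ⟨C₁, hC₁⟩ := isCompact_Icc.exists_bound_of_continuousOn hR
  obtain ⟨Λ, hΛ'⟩ := isCompact_Icc.exists_bound_of_continuousOn hlam
  have hΛ : ∀ t ∈ Icc α β, |lam t| ≤ Λ := fun t ht => by
    simpa [Real.norm_eq_abs] using hΛ' t ht
  have hRm : ∀ t ∈ Icc α β, R t ≤ C₁ := fun t ht =>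
    (le_abs_self _).trans (by simpa [Real.norm_eq_abs] using hC₁ t ht)
  have hα : α ∈ Icc α β := ⟨le_rfl, hαβ.le⟩
  have hC₁0 : 0 ≤ C₁ := (hR0 α hα).trans (hRm α hα)
  have hΛ0 : 0 ≤ Λ := (abs_nonneg _).trans (hΛ α hα)
  have hβα : 0 < β - α := sub_pos.mpr hαβ
  set K := κ * (β - α) * (2 * C₁ + 3) with hK
  have hKpos : 0 < K := by positivity
  set ε₁ := min 1 (η / K) with hε₁def
  have hε₁ : 0 < ε₁ := lt_min one_pos (div_pos hη hKpos)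
  have hε₁1 : ε₁ ≤ 1 := min_le_left _ _
  have hε₁K : K * ε₁ ≤ η := by
    have : ε₁ ≤ η / K := min_le_right _ _
    rw [le_div_iff₀ hKpos] at this
    linarith
  obtain ⟨δR, hδR0, hδR⟩ := unifCont R α β hR ε₁ hε₁
  obtain ⟨δf, hδf0, hδf⟩ := unifCont (fun τ => Fv (R τ) (w τ)) α β hfc ε₁ hε₁
  set δ₃ := ε₁ / (4 * L * (Λ + 1)) with hδ₃
  have hδ₃0 : 0 < δ₃ := by positivity
  set δ := min (δR / 2) (min (δf / 2) δ₃) with hδdef
  have hδ0 : 0 < δ := lt_min (by positivity) (lt_min (by positivity) hδ₃0)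
  have hδ1 : δ < δR := lt_of_le_of_lt (min_le_left _ _) (by linarith)
  have hδ2 : δ < δf :=
    lt_of_le_of_lt ((min_le_right _ _).trans (min_le_left _ _)) (by linarith)
  have hδ3 : L * Λ * δ ≤ ε₁ / 4 := by
    have h1 : δ ≤ δ₃ := (min_le_right _ _).trans (min_le_right _ _)
    have h2 : L * Λ * δ ≤ L * (Λ + 1) * δ₃ := by
      apply mul_le_mul _ h1 hδ0.le (by positivity)
      nlinarith
    have h3 : L * (Λ + 1) * δ₃ = ε₁ / 4 := by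
      rw [hδ₃]; field_simp
    linarith
  have hδR' : ∀ x ∈ Icc α β, ∀ y ∈ Icc α β, |x - y| ≤ δ → |R x - R y| ≤ ε₁ :=
    fun x hx y hy hxy => (hδR x hx y hy (lt_of_le_of_lt hxy hδ1)).le
  have hδf' : ∀ x ∈ Icc α β, ∀ y ∈ Icc α β, |x - y| ≤ δ →
      |Fv (R x) (w x) - Fv (R y) (w y)| ≤ ε₁ :=
    fun x hx y hy hxy => (hδf x hx y hy (lt_of_le_of_lt hxy hδ2)).le
  refine ⟨δ, hδ0, ?_⟩
  intro N t c hmono ht0 htN hmesh hc
  rcases N with _ | N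
  · exfalso
    have h01 : t 0 = t (Fin.last 0) := rfl
    rw [ht0, htN] at h01
    exact hαβ.ne h01
  have hmon : Monotone t := hmono.monotone
  have hfacts := fun i : Fin (N + 1) =>
    piece_facts hT e a b p₀ he ha hb hG hD L hL α β R hR0 w hw lam hw' Λ hΛ C₁ hRm ε₁ hε₁ hε₁1 δ
      hδR' hδf' hδ3 (t i.castSucc) (t i.succ) (c i) (hmono Fin.castSucc_lt_succ)
      (by rw [← ht0]; exact hmon (Fin.zero_le _)) (by rw [← htN]; exact hmon (Fin.le_last _))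
      (hmesh i) ⟨(hc i).1, (hc i).2⟩
  have hfc' : ContinuousOn (fun τ => Fv (R τ) (w τ)) (Icc (t 0) (t (Fin.last (N + 1)))) := by
    rw [ht0, htN]; exact hfc
  have hRU := riemann_bound (fun τ => Fv (R τ) (w τ)) (N + 1) t hmon hfc'
    (fun i => Fv (R (c i) + 2 * ε₁) (w (c i))) (ε₁ * (2 * C₁ + 3))
    (fun i => (hfacts i).2.2.2.2.2.2.1)
  have hRL := riemann_bound (fun τ => Fv (R τ) (w τ)) (N + 1) t hmon hfc'
    (fun i => Fv (max (R (c i) - ε₁) 0) (w (c i))) (ε₁ * (2 * C₁ + 3))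
    (fun i => (hfacts i).2.2.2.2.2.2.2)
  rw [ht0, htN] at hRU hRL
  set I := ∫ τ in α..β, Fv (R τ) (w τ) with hI
  have hEη : κ * (ε₁ * (2 * C₁ + 3) * (β - α)) ≤ η := by
    have : κ * (ε₁ * (2 * C₁ + 3) * (β - α)) = K * ε₁ := by rw [hK]; ring
    rw [this]; exact hε₁K
  have hSU : |κ * (∑ i : Fin (N + 1), Fv (R (c i) + 2 * ε₁) (w (c i)) *
      (t i.succ - t i.castSucc)) - κ * I| ≤ η := by
    rw [← mul_sub, abs_mul, abs_of_pos hκ]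
    exact (mul_le_mul_of_nonneg_left hRU hκ.le).trans hEη
  have hSL : |κ * (∑ i : Fin (N + 1), Fv (max (R (c i) - ε₁) 0) (w (c i)) *
      (t i.succ - t i.castSucc)) - κ * I| ≤ η := by
    rw [← mul_sub, abs_mul, abs_of_pos hκ]
    exact (mul_le_mul_of_nonneg_left hRL hκ.le).trans hEη
  constructor
  · refine ⟨fun i => vP e p₀ a b (w (c i)) (ε₁ / 4) (t i.castSucc) (t i.succ),
      fun i => vQ e p₀ a b (w (c i)) (ε₁ / 4) (R (c i) + 2 * ε₁) (t i.castSucc) (t i.succ),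
      fun i => vR e p₀ a b (w (c i)) (ε₁ / 4) (R (c i) + 2 * ε₁) (t i.castSucc) (t i.succ),
      fun i => (hfacts i).1, fun i => (hfacts i).2.1, ?_, ?_⟩
    · rintro x ⟨τ, hτ, ρ, hρ, s, hs, rfl⟩
      obtain ⟨i, hi1, hi2⟩ := exists_piece N t τ (by rw [ht0]; exact hτ.1)
        (by rw [htN]; exact hτ.2)
      rw [mem_iUnion]
      refine ⟨i, proj (e + w (c i)) (p₀ + ρ • (a + τ • b) + s • (e + w τ)),
        (hfacts i).2.2.1 ⟨_, ⟨τ, ⟨hi1, hi2⟩, ρ, hρ, s, hs, rfl⟩, rfl⟩,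
        inner ℝ (p₀ + ρ • (a + τ • b) + s • (e + w τ)) (e + w (c i)) / ‖e + w (c i)‖ ^ 2, ?_⟩
      unfold proj
      abel
    · have hsum : ∑ i : Fin (N + 1), (μHE[2] (convexHull ℝ
          ({vP e p₀ a b (w (c i)) (ε₁ / 4) (t i.castSucc) (t i.succ),
            vQ e p₀ a b (w (c i)) (ε₁ / 4) (R (c i) + 2 * ε₁) (t i.castSucc) (t i.succ),
            vR e p₀ a b (w (c i)) (ε₁ / 4) (R (c i) + 2 * ε₁) (t i.castSucc) (t i.succ)} :
            Set E3))).toReal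
          = κ * ∑ i : Fin (N + 1), Fv (R (c i) + 2 * ε₁) (w (c i)) *
            (t i.succ - t i.castSucc) := by
        rw [Finset.mul_sum]
        exact Finset.sum_congr rfl (fun i _ => (hfacts i).2.2.2.1)
      rw [hsum]
      exact hSU
  · have hlo : κ * (∑ i : Fin (N + 1), Fv (max (R (c i) - ε₁) 0) (w (c i)) *
        (t i.succ - t i.castSucc)) ≤ ∑ i : Fin (N + 1), (μHE[2] (proj (e + w (c i)) ''
            piece p₀ a b e w R L (t i.castSucc) (t i.succ))).toReal := by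
      rw [Finset.mul_sum]
      exact Finset.sum_le_sum (fun i _ => (hfacts i).2.2.2.2.1)
    have hhi : ∑ i : Fin (N + 1), (μHE[2] (proj (e + w (c i)) ''
            piece p₀ a b e w R L (t i.castSucc) (t i.succ))).toReal ≤
        κ * (∑ i : Fin (N + 1), Fv (R (c i) + 2 * ε₁) (w (c i)) *
        (t i.succ - t i.castSucc)) := by
      rw [Finset.mul_sum]
      exact Finset.sum_le_sum (fun i _ => (hfacts i).2.2.2.2.2.1)
    rw [abs_le] at hSU hSL ⊢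
    constructor <;> linarith [hSU.1, hSU.2, hSL.1, hSL.2]

end Crest.Agent.Helper6.Fan
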